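import Vale.Agent.P315.H381.MachA
import Vale.Agent.P315.H132.Net
import Vale.Agent.P315.C.Stmt

/-!
P315, row C-H3, (H3a) for the machines of the additive geometry (`H801/Mach.lean`): the value of
the cheapest node path between the coarse nodes below the ends of the comparison path is a family
`ZFam` with `tau s = 12 / g s`.
-/

set_option autoImplicit false

open Finset

namespace Vale.Agent.P315.H381

open C H808
open H801 (nodeD posN labN)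
open H132 (cn nd)

section

variable {M ℓ μ B J S H n : ℕ} {vis hid : Leaf}

/-- Geometry of the comparison path: labels = positions, rows move by at most `ℓ`. -/
structure BoxGeo (C : Chain (boxPar M ℓ μ B J S H) vis hid n) : Prop where
  adm : ∀ i, i < M ^ n → C.pos i ≤ C.pos (i + 1) ∧ C.pos (i + 1) ≤ C.pos i + ℓ
  pos_le : ∀ i, i ≤ M ^ n → C.pos i ≤ B
  lab_eq : ∀ j i, j ≤ n → i < M ^ (n - j) → C.lab j i = C.pos (i * M ^ j) / (ℓ * M ^ j)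

/-- Numbers of the machines: `g s` fine nodes per unit length. -/
structure BoxNum (M ℓ μ smax : ℕ) (g : ℕ → ℕ) : Prop where
  hM : 0 < M
  hℓ : 0 < ℓ
  hμ : 0 < μ
  hg : ∀ s, s ≤ smax → 0 < g s
  hd : ∀ s, s ≤ smax → μ * g s ∣ ℓ

variable {C : Chain (boxPar M ℓ μ B J S H) vis hid n}

/-- The geometry is part of an instance. -/
theorem BoxGeo.of_inst {η : ℝ} (hI : Inst (boxPar M ℓ μ B J S H) vis hid n η C) : BoxGeo C :=
  ⟨fun i hi => hI.adm i hi, fun i hi => hI.pos_le i hi, fun j i hj hi => hI.lab_eq j i hj hi⟩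

theorem BoxGeo.mono (G : BoxGeo C) {a b : ℕ} (h : a ≤ b) (hb : b ≤ M ^ n) :
    C.pos a ≤ C.pos b := by
  induction b with
  | zero => obtain rfl : a = 0 := by omega
            exact le_rfl
  | succ b ih =>
    rcases Nat.lt_or_ge b a with h1 | h1
    · obtain rfl : a = b + 1 := by omega
      exact le_rfl
    · exact (ih h1 (by omega)).trans (G.adm b (by omega)).1

theorem BoxGeo.step (G : BoxGeo C) (a m : ℕ) (hb : a + m ≤ M ^ n) :
    C.pos (a + m) ≤ C.pos a + m * ℓ := by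
  induction m with
  | zero => simp
  | succ m ih =>
    have h1 := ih (by omega)
    have h2 : C.pos (a + (m + 1)) ≤ C.pos (a + m) + ℓ := (G.adm (a + m) (by omega)).2
    have h3 : (m + 1) * ℓ = m * ℓ + ℓ := by ring
    omega

theorem rows_le {j e i u : ℕ} (hj : j + e ≤ n) (hi : i < M ^ (n - (j + e))) (hu : u ≤ M ^ e) :
    (i * M ^ e + u) * M ^ j ≤ M ^ n := by
  calc (i * M ^ e + u) * M ^ j ≤ (i * M ^ e + M ^ e) * M ^ j :=
        Nat.mul_le_mul_right _ (by omega)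
    _ = (i + 1) * M ^ (j + e) := by rw [pow_add]; ring
    _ ≤ M ^ (n - (j + e)) * M ^ (j + e) := Nat.mul_le_mul_right _ hi
    _ = M ^ n := by rw [← pow_add, Nat.sub_add_cancel hj]

/-- **The comparison path of a top on the net of the machines.** -/
theorem BoxGeo.net {smax : ℕ} {g : ℕ → ℕ} (G : BoxGeo C) (N : BoxNum M ℓ μ smax g) {s j i : ℕ}
    (hs : s ≤ smax) (hj : j + 2 ^ s ≤ n) (hi : i < M ^ (n - (j + 2 ^ s))) :
    H132.Net (M ^ 2 ^ s) (ℓ * M ^ j) (g s) μ B (C.lab (j + 2 ^ s) i) (ℓ * M ^ j / g s)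
      (fun u => C.pos ((i * M ^ 2 ^ s + u) * M ^ j)) := by
  obtain ⟨c, hc⟩ := N.hd s hs
  have hg := N.hg s hs
  have hc0 : 0 < c := by
    rcases Nat.eq_zero_or_pos c with h | h
    · rw [h, Nat.mul_zero] at hc
      have := N.hℓ
      omega
    · exact h
  have e1 : ℓ * M ^ j / g s = μ * c * M ^ j := by
    rw [hc, show μ * g s * c * M ^ j = g s * (μ * c * M ^ j) by ring,
      Nat.mul_div_cancel_left _ hg]
  have hMj : 0 < M ^ j := Nat.pow_pos N.hM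
  have e2 : M ^ 2 ^ s * (ℓ * M ^ j) = ℓ * M ^ (j + 2 ^ s) := by rw [pow_add]; ring
  have hT : 0 < ℓ * M ^ (j + 2 ^ s) := Nat.mul_pos N.hℓ (Nat.pow_pos N.hM)
  have e3 : (i * M ^ 2 ^ s + 0) * M ^ j = i * M ^ (j + 2 ^ s) := by rw [pow_add]; ring
  refine ⟨Nat.pow_pos N.hM, hg, ?_, N.hμ, ?_, ?_, ?_, ?_, ?_, ?_, ?_⟩
  · rw [e1]
    exact Nat.mul_pos (Nat.mul_pos N.hμ hc0) hMj
  · rw [e1, hc]
    ring
  · rw [e1, mul_assoc]
    exact Dvd.intro _ rfl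
  · show C.lab (j + 2 ^ s) i * (M ^ 2 ^ s * (ℓ * M ^ j)) ≤ C.pos ((i * M ^ 2 ^ s + 0) * M ^ j)
    rw [e2, e3, G.lab_eq _ i hj hi]
    exact Nat.div_mul_le_self _ _
  · show C.pos ((i * M ^ 2 ^ s + 0) * M ^ j) < (C.lab (j + 2 ^ s) i + 1) *
      (M ^ 2 ^ s * (ℓ * M ^ j))
    rw [e2, e3, G.lab_eq _ i hj hi, Nat.add_mul, Nat.one_mul]
    exact Nat.lt_div_mul_add hT
  · intro u hu
    exact G.mono (Nat.mul_le_mul_right _ (by omega)) (rows_le hj hi hu)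
  · intro u hu
    have h1 := G.step ((i * M ^ 2 ^ s + u) * M ^ j) (M ^ j) (by
      have := rows_le (M := M) hj hi (u := u + 1) hu
      calc (i * M ^ 2 ^ s + u) * M ^ j + M ^ j = (i * M ^ 2 ^ s + (u + 1)) * M ^ j := by ring
        _ ≤ M ^ n := this)
    have e4 : (i * M ^ 2 ^ s + (u + 1)) * M ^ j = (i * M ^ 2 ^ s + u) * M ^ j + M ^ j := by ring
    show C.pos ((i * M ^ 2 ^ s + (u + 1)) * M ^ j) ≤
      C.pos ((i * M ^ 2 ^ s + u) * M ^ j) + ℓ * M ^ j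
    rw [e4, Nat.mul_comm ℓ]
    exact h1
  · exact G.pos_le _ (rows_le hj hi le_rfl)

variable (C) in
/-- Costs of the rows of the machine graph of scale `s` at the own index `b` of the top
`(J, i)`. -/
noncomputable def nodeB (mc : Mach) (ω : Rnd) (g : ℕ → ℕ) (s Jv i : ℕ) (b : ℤ) : ℕ → ℕ → ℕ → ℕ :=
  nodeD (M ^ 2 ^ s) (ℓ * M ^ (Jv - 2 ^ s)) (g s) μ B (C.lab Jv i)
    (fun _ m x u v => cR (boxPar M ℓ μ B J S H) mc ω vis hid (Jv - 2 ^ s) (i * M ^ 2 ^ s + m) x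
      (b - Xi (boxPar M ℓ μ B J S H) ω Jv (2 ^ s) m -
        (boxPar M ℓ μ B J S H).pen Jv (2 ^ s) (C.lab Jv i) x) u v) 0

variable (C) in
/-- The value which the machines of scale `s` see between the coarse nodes below the ends of the
comparison path. -/
noncomputable def WB (mc : Mach) (ω : Rnd) (g : ℕ → ℕ) (s Jv i : ℕ) (b : ℤ) : ℕ :=
  H220.WD (M ^ 2 ^ s + 2) (2 * M ^ 2 ^ s * g s + 1)
    (cn (M ^ 2 ^ s) (ℓ * M ^ (Jv - 2 ^ s)) (C.lab Jv i) (ℓ * M ^ (Jv - 2 ^ s) / g s)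
      (C.pos (i * M ^ Jv)) * M ^ 2 ^ s)
    (cn (M ^ 2 ^ s) (ℓ * M ^ (Jv - 2 ^ s)) (C.lab Jv i) (ℓ * M ^ (Jv - 2 ^ s) / g s)
      (C.pos ((i + 1) * M ^ Jv)) * M ^ 2 ^ s)
    (nodeB C mc ω g s Jv i b)

/-- The graph of the machines in round `κ`. -/
theorem nodeB_hist (mc : Mach) (ω : Rnd) (g : ℕ → ℕ) (s Jv i κ : ℕ) :
    nodeD (M ^ 2 ^ s) (ℓ * M ^ (Jv - 2 ^ s)) (g s) μ B (C.lab Jv i)
      (hist (boxPar M ℓ μ B J S H) ω vis hid (rd (boxPar M ℓ μ B J S H) mc ω vis hid) Jv i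
        (C.lab Jv i) s) κ = nodeB C mc ω g s Jv i ((κ : ℤ) - H) := rfl

variable (C) in
/-- Positions and labels of the nodes. -/
def zpB (g : ℕ → ℕ) (s Jv i x : ℕ) : ℕ :=
  posN μ B (C.lab Jv i * (M ^ 2 ^ s * (ℓ * M ^ (Jv - 2 ^ s)))) (ℓ * M ^ (Jv - 2 ^ s)) (g s) x

variable (C) in
def lbB (g : ℕ → ℕ) (s Jv i x : ℕ) : ℕ :=
  labN (M ^ 2 ^ s) (ℓ * M ^ (Jv - 2 ^ s)) (C.lab Jv i) (zpB C g s Jv i x)

theorem nodeB_eq (mc : Mach) (ω : Rnd) (g : ℕ → ℕ) (s Jv i : ℕ) (b : ℤ) :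
    nodeB C mc ω g s Jv i b = UD (boxPar M ℓ μ B J S H) mc ω vis hid Jv i (C.lab Jv i) s
      (lbB C g s Jv i) (zpB C g s Jv i) b := rfl

theorem lbB_mem (hM : 0 < M) (g : ℕ → ℕ) (s Jv i x : ℕ) :
    lbB C g s Jv i x ∈ (boxPar M ℓ μ B J S H).desc Jv (2 ^ s) (C.lab Jv i) := by
  obtain ⟨h1, h2⟩ := H801.labN_bound (K := M ^ 2 ^ s) (Tu := ℓ * M ^ (Jv - 2 ^ s))
    (a := C.lab Jv i) (u := zpB C g s Jv i x) (Nat.pow_pos hM)
  exact H801.mem_desc hM (by positivity) Jv _ _ h1 h2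

/-- The node path next to the comparison path. -/
theorem WB_data {smax : ℕ} {g : ℕ → ℕ} (G : BoxGeo C) (N : BoxNum M ℓ μ smax g) {s j i : ℕ}
    (hs : s ≤ smax) (hj : j + 2 ^ s ≤ n) (hi : i < M ^ (n - (j + 2 ^ s))) :
    (cn (M ^ 2 ^ s) (ℓ * M ^ j) (C.lab (j + 2 ^ s) i) (ℓ * M ^ j / g s)
      (C.pos (i * M ^ (j + 2 ^ s))) * M ^ 2 ^ s < 2 * M ^ 2 ^ s * g s + 1) ∧
    (cn (M ^ 2 ^ s) (ℓ * M ^ j) (C.lab (j + 2 ^ s) i) (ℓ * M ^ j / g s)
      (C.pos ((i + 1) * M ^ (j + 2 ^ s))) * M ^ 2 ^ s < 2 * M ^ 2 ^ s * g s + 1) ∧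
    Nat.dist (zpB C g s (j + 2 ^ s) i
        (cn (M ^ 2 ^ s) (ℓ * M ^ j) (C.lab (j + 2 ^ s) i) (ℓ * M ^ j / g s)
          (C.pos (i * M ^ (j + 2 ^ s))) * M ^ 2 ^ s)) (C.pos (i * M ^ (j + 2 ^ s))) ≤
      M ^ 2 ^ s * (ℓ * M ^ j / g s) ∧
    Nat.dist (zpB C g s (j + 2 ^ s) i
        (cn (M ^ 2 ^ s) (ℓ * M ^ j) (C.lab (j + 2 ^ s) i) (ℓ * M ^ j / g s)
          (C.pos ((i + 1) * M ^ (j + 2 ^ s))) * M ^ 2 ^ s)) (C.pos ((i + 1) * M ^ (j + 2 ^ s))) ≤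
      M ^ 2 ^ s * (ℓ * M ^ j / g s) ∧
    ∀ m ≤ M ^ 2 ^ s,
      nd (M ^ 2 ^ s) (ℓ * M ^ j) (C.lab (j + 2 ^ s) i) (ℓ * M ^ j / g s)
        (C.pos ((i * M ^ 2 ^ s + m) * M ^ j)) < 2 * M ^ 2 ^ s * g s + 1 ∧
      Nat.dist (zpB C g s (j + 2 ^ s) i
        (nd (M ^ 2 ^ s) (ℓ * M ^ j) (C.lab (j + 2 ^ s) i) (ℓ * M ^ j / g s)
          (C.pos ((i * M ^ 2 ^ s + m) * M ^ j)))) (C.pos ((i * M ^ 2 ^ s + m) * M ^ j)) ≤
        ℓ * M ^ j / g s ∧
      (m < M ^ 2 ^ s → lbB C g s (j + 2 ^ s) i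
        (nd (M ^ 2 ^ s) (ℓ * M ^ j) (C.lab (j + 2 ^ s) i) (ℓ * M ^ j / g s)
          (C.pos ((i * M ^ 2 ^ s + m) * M ^ j))) = C.lab j (i * M ^ 2 ^ s + m)) := by
  have Z := G.net N hs hj hi
  set K := M ^ 2 ^ s with hK
  set Tu := ℓ * M ^ j with hTu
  set a := C.lab (j + 2 ^ s) i with ha
  set η := Tu / g s with hη
  have e0 : (i * K + 0) * M ^ j = i * M ^ (j + 2 ^ s) := by rw [hK, pow_add]; ring
  have eK : (i * K + K) * M ^ j = (i + 1) * M ^ (j + 2 ^ s) := by rw [hK, pow_add]; ring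
  have c0 := Z.cn_zero_le
  have cK := Z.cn_K_le
  have p0 := Z.pos_zero
  have pK := Z.pos_last
  have l0 := Z.cn_le (u := 0) (Nat.zero_le _)
  have lK := Z.cn_le (u := K) le_rfl
  simp only [e0, eK] at c0 cK p0 pK l0 lK
  have eT : j + 2 ^ s - 2 ^ s = j := Nat.add_sub_cancel _ _
  have hzp : ∀ x, zpB C g s (j + 2 ^ s) i x = posN μ B (a * (K * Tu)) Tu (g s) x := by
    intro x
    unfold zpB
    rw [eT]
  refine ⟨?_, ?_, ?_, ?_, ?_⟩
  · have h1 := Nat.mul_le_mul_right K c0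
    have h2 : g s * K = K * g s := Nat.mul_comm _ _
    have h3 : 2 * K * g s = K * g s + K * g s := by ring
    omega
  · have h1 := Nat.mul_le_mul_right K cK
    have h2 : 2 * g s * K = 2 * K * g s := by ring
    omega
  · rw [hzp, p0]
    unfold Nat.dist
    omega
  · rw [hzp, pK]
    unfold Nat.dist
    omega
  · intro m hm
    have n1 := Z.nd_lt hm
    have n2 := Z.nd_le hm
    have n3 := Z.pos_mid hm
    rw [Z.FF_mid hm] at n3
    refine ⟨?_, ?_, ?_⟩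
    · exact Nat.lt_succ_of_lt n1
    · rw [hzp, n3]
      have n2' : a * (K * Tu) + nd K Tu a η (C.pos ((i * K + m) * M ^ j)) * η ≤
          C.pos ((i * K + m) * M ^ j) ∧ C.pos ((i * K + m) * M ^ j) <
          a * (K * Tu) + nd K Tu a η (C.pos ((i * K + m) * M ^ j)) * η + η := n2
      unfold Nat.dist
      show a * (K * Tu) + nd K Tu a η (C.pos ((i * K + m) * M ^ j)) * η -
        C.pos ((i * K + m) * M ^ j) + (C.pos ((i * K + m) * M ^ j) -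
        (a * (K * Tu) + nd K Tu a η (C.pos ((i * K + m) * M ^ j)) * η)) ≤ η
      omega
    · intro hm'
      have n4 := Z.lab_mid hm'
      rw [Z.FF_mid hm] at n4
      have n5 := G.lab_eq j (i * K + m) (le_trans (Nat.le_add_right _ _) hj) (desc_lt hj hi hm')
      rw [n5]
      unfold lbB
      rw [hzp, eT]
      exact n4

end

/-! ### The family -/

section family

variable {M ℓ μ B J S H n : ℕ} {vis hid : Leaf} {C : Chain (boxPar M ℓ μ B J S H) vis hid n}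

theorem W_const {A : Along M n} {c : ℝ} (h : ∀ i, A.w i = c) (j i : ℕ) :
    A.W j i = c * (M : ℝ) ^ j := by
  unfold Along.W bs
  rw [sum_congr rfl fun r _ => h _, sum_const, card_range, nsmul_eq_mul]
  push_cast
  ring

variable (C) in
/-- The data along the comparison path. -/
noncomputable def alongB (mc : Mach) (ω : Rnd) {η : ℝ}
    (hI : Inst (boxPar M ℓ μ B J S H) vis hid n η C) : Along M n :=
  C.along mc ω hI.pt hI.hid_le

/-- **(H3a) for the machines of the additive geometry.** -/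
theorem zfamB (mc : Mach) (ω : Rnd) {η : ℝ} {smax : ℕ} {g : ℕ → ℕ}
    (hI : Inst (boxPar M ℓ μ B J S H) vis hid n η C) (N : BoxNum M ℓ μ smax g)
    (hη : 0 ≤ η) (hw : ∀ i, C.w i = ℓ) :
    ZFam (alongB C mc ω hI) smax (fun s Jv i b => (WB C mc ω g s Jv i b : ℝ))
      (fun s => 12 / g s) η := by
  have G : BoxGeo C := BoxGeo.of_inst hI
  have hE : ∃ p q, H140.Ed (boxPar M ℓ μ B J S H) p q := by
    obtain ⟨p, h1, h2, h3⟩ := hI.pt
    exact ⟨p, p, h1, h1, h2, h2, h3⟩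
  have hle : HidLe (boxPar M ℓ μ B J S H) vis hid := fun i p q h => hI.hid_le i p q h.2.2.2.2
  have hM : 0 < (boxPar M ℓ μ B J S H).M := N.hM
  have hW : ∀ j i, (alongB C mc ω hI).W j i = ℓ * (M : ℝ) ^ j := fun j i =>
    W_const (A := alongB C mc ω hI) hw j i
  have hpA : C.PenAdd := fun _ _ _ _ _ => rfl
  -- the rounding errors
  have hround : ∀ s j i, s ≤ smax → j + 2 ^ s ≤ n →
      (((M ^ 2 ^ s + 1) * (2 * (2 * (ℓ * M ^ j / g s))) +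
        2 * (2 * (M ^ 2 ^ s * (ℓ * M ^ j / g s))) : ℕ) : ℝ) ≤
        12 / g s * (alongB C mc ω hI).W (j + 2 ^ s) i := by
    intro s j i hs hj
    have hg : (0 : ℝ) < g s := by exact_mod_cast N.hg s hs
    have h1 : ((ℓ * M ^ j / g s : ℕ) : ℝ) ≤ (ℓ : ℝ) * (M : ℝ) ^ j / g s := by
      have := Nat.cast_div_le (α := ℝ) (m := ℓ * M ^ j) (n := g s)
      push_cast at this
      exact this
    have h2 : (1 : ℝ) ≤ (M : ℝ) ^ 2 ^ s := one_le_pow₀ (by exact_mod_cast N.hM)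
    have h0 : (0 : ℝ) ≤ ((ℓ * M ^ j / g s : ℕ) : ℝ) := by positivity
    rw [hW]
    push_cast
    have e1 : (12 : ℝ) / g s * (ℓ * (M : ℝ) ^ (j + 2 ^ s)) =
        12 * (M : ℝ) ^ 2 ^ s * ((ℓ : ℝ) * (M : ℝ) ^ j / g s) := by
      rw [pow_add]
      ring
    rw [e1]
    set x := ((ℓ * M ^ j / g s : ℕ) : ℝ) with hx
    have h3 : 12 * (M : ℝ) ^ 2 ^ s * x ≤ 12 * (M : ℝ) ^ 2 ^ s * ((ℓ : ℝ) * (M : ℝ) ^ j / g s) :=
      mul_le_mul_of_nonneg_left h1 (by positivity)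
    refine le_trans ?_ h3
    nlinarith [mul_nonneg (sub_nonneg.2 h2) h0]
  refine ⟨fun s => by positivity, hη, ?_, ?_, ?_, ?_⟩
  · intro s j i hs hj hi b b' h
    obtain ⟨h1, h2, -⟩ := WB_data G N hs hj hi
    have h3 : WB C mc ω g s (j + 2 ^ s) i b' ≤ WB C mc ω g s (j + 2 ^ s) i b := by
      unfold WB
      rw [nodeB_eq, nodeB_eq, Nat.add_sub_cancel]
      exact WZ_anti hE hle h1 h2 h
    show (WB C mc ω g s (j + 2 ^ s) i b' : ℝ) ≤ WB C mc ω g s (j + 2 ^ s) i b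
    exact_mod_cast h3
  · intro s j i b hs hj hi
    obtain ⟨h1, h2, h3, h4, -⟩ := WB_data G N hs hj hi
    have h5 := cR_le_WZ (P := boxPar M ℓ μ B J S H) (mc := mc) (ω := ω) (vis := vis) (hid := hid)
      (i := i) (a := C.lab (j + 2 ^ s) i) (zp := zpB C g s (j + 2 ^ s) i)
      (lb := lbB C g s (j + 2 ^ s) i) hM box_penOK hE hle (Nat.le_add_left (2 ^ s) j) h1 h2
      (fun x _ => lbB_mem N.hM g s (j + 2 ^ s) i x) b (C.pos (i * M ^ (j + 2 ^ s)))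
      (C.pos ((i + 1) * M ^ (j + 2 ^ s)))
    have h6 : cR (boxPar M ℓ μ B J S H) mc ω vis hid (j + 2 ^ s) i (C.lab (j + 2 ^ s) i) b
        (C.pos (i * M ^ (j + 2 ^ s))) (C.pos ((i + 1) * M ^ (j + 2 ^ s))) ≤
        WB C mc ω g s (j + 2 ^ s) i b +
        ((M ^ 2 ^ s + 1) * (2 * (2 * (ℓ * M ^ j / g s))) +
          2 * (2 * (M ^ 2 ^ s * (ℓ * M ^ j / g s)))) := by
      have e1 : WB C mc ω g s (j + 2 ^ s) i b =
          WZ (boxPar M ℓ μ B J S H) mc ω vis hid (j + 2 ^ s) i (C.lab (j + 2 ^ s) i) s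
            (2 * M ^ 2 ^ s * g s + 1)
            (cn (M ^ 2 ^ s) (ℓ * M ^ j) (C.lab (j + 2 ^ s) i) (ℓ * M ^ j / g s)
              (C.pos (i * M ^ (j + 2 ^ s))) * M ^ 2 ^ s)
            (cn (M ^ 2 ^ s) (ℓ * M ^ j) (C.lab (j + 2 ^ s) i) (ℓ * M ^ j / g s)
              (C.pos ((i + 1) * M ^ (j + 2 ^ s))) * M ^ 2 ^ s)
            (lbB C g s (j + 2 ^ s) i) (zpB C g s (j + 2 ^ s) i) b := by
        unfold WB
        rw [nodeB_eq, Nat.add_sub_cancel]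
        rfl
      rw [e1]
      have e2 : (boxPar M ℓ μ B J S H).sh = 2 := rfl
      rw [e2] at h5
      rw [Nat.dist_comm] at h3
      refine h5.trans ?_
      have h7 := Nat.mul_le_mul_left 2 h3
      have h8 := Nat.mul_le_mul_left 2 h4
      have h9 : 0 ≤ (M ^ 2 ^ s + 1) * (2 * (2 * (ℓ * M ^ j / g s))) := Nat.zero_le _
      omega
    have h7 := hround s j i hs hj
    have h8 : ((cR (boxPar M ℓ μ B J S H) mc ω vis hid (j + 2 ^ s) i (C.lab (j + 2 ^ s) i) b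
        (C.pos (i * M ^ (j + 2 ^ s))) (C.pos ((i + 1) * M ^ (j + 2 ^ s))) : ℕ) : ℝ) ≤
        (WB C mc ω g s (j + 2 ^ s) i b : ℝ) +
        (((M ^ 2 ^ s + 1) * (2 * (2 * (ℓ * M ^ j / g s))) +
          2 * (2 * (M ^ 2 ^ s * (ℓ * M ^ j / g s))) : ℕ) : ℝ) := by exact_mod_cast h6
    exact h8.trans (by linarith)
  · intro s j i b hs hj hi
    obtain ⟨h1, h2, h3, h4, h5⟩ := WB_data G N hs hj hi
    have e0 : (i * M ^ 2 ^ s + 0) * M ^ j = i * M ^ (j + 2 ^ s) := by rw [pow_add]; ring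
    have eK : (i * M ^ 2 ^ s + M ^ 2 ^ s) * M ^ j = (i + 1) * M ^ (j + 2 ^ s) := by
      rw [pow_add]; ring
    have h6 := WZ_le (P := boxPar M ℓ μ B J S H) (mc := mc) (ω := ω) (vis := vis) (hid := hid)
      (j := j + 2 ^ s) (s := s) (i := i) (a := C.lab (j + 2 ^ s) i)
      (zp := zpB C g s (j + 2 ^ s) i) (lb := lbB C g s (j + 2 ^ s) i)
      (nd := fun m => nd (M ^ 2 ^ s) (ℓ * M ^ j) (C.lab (j + 2 ^ s) i) (ℓ * M ^ j / g s)
        (C.pos ((i * M ^ 2 ^ s + m) * M ^ j)))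
      (y := fun m => C.lab j (i * M ^ 2 ^ s + m))
      (pos := fun m => C.pos ((i * M ^ 2 ^ s + m) * M ^ j))
      (dl := ℓ * M ^ j / g s) (dlc := M ^ 2 ^ s * (ℓ * M ^ j / g s))
      hE h1 h2 (fun m hm => (h5 m hm).1) (fun m hm => (h5 m hm.le).2.2 hm)
      (fun m hm => (h5 m hm).2.1) (by simp only [e0]; exact h3)
      (by
        show Nat.dist _ (C.pos ((i * M ^ 2 ^ s + M ^ 2 ^ s) * M ^ j)) ≤ _
        rw [eK]; exact h4) b
    have e1 : WB C mc ω g s (j + 2 ^ s) i b =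
        WZ (boxPar M ℓ μ B J S H) mc ω vis hid (j + 2 ^ s) i (C.lab (j + 2 ^ s) i) s
          (2 * M ^ 2 ^ s * g s + 1)
          (cn (M ^ 2 ^ s) (ℓ * M ^ j) (C.lab (j + 2 ^ s) i) (ℓ * M ^ j / g s)
            (C.pos (i * M ^ (j + 2 ^ s))) * M ^ 2 ^ s)
          (cn (M ^ 2 ^ s) (ℓ * M ^ j) (C.lab (j + 2 ^ s) i) (ℓ * M ^ j / g s)
            (C.pos ((i + 1) * M ^ (j + 2 ^ s))) * M ^ 2 ^ s)
          (lbB C g s (j + 2 ^ s) i) (zpB C g s (j + 2 ^ s) i) b := by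
      unfold WB
      rw [nodeB_eq, Nat.add_sub_cancel]
      rfl
    rw [← e1] at h6
    have h7 := hround s j i hs hj
    have h8 : (WB C mc ω g s (j + 2 ^ s) i b : ℝ) ≤ _ := Nat.cast_le.2 h6
    refine h8.trans ?_
    rw [Nat.cast_add]
    refine add_le_add (le_of_eq ?_) h7
    rw [Nat.cast_sum]
    refine sum_congr rfl fun m hm => ?_
    have hm : m < M ^ 2 ^ s := mem_range.1 hm
    have h9 := C.US_eq mc ω hI.pt hI.hid_le (fun _ _ => rfl) hpA (2 ^ s) j (i * M ^ 2 ^ s + m) hj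
      (desc_lt hj hi hm)
    have h10 : Xi (boxPar M ℓ μ B J S H) ω (j + 2 ^ s) (2 ^ s) (i * M ^ 2 ^ s + m) =
        Xi (boxPar M ℓ μ B J S H) ω (j + 2 ^ s) (2 ^ s) m :=
      Xi_mul_add (P := boxPar M ℓ μ B J S H) hM ω (j + 2 ^ s) (2 ^ s) i m
    have h11 : (alongB C mc ω hI).US j (2 ^ s) (i * M ^ 2 ^ s + m) =
        Xi (boxPar M ℓ μ B J S H) ω (j + 2 ^ s) (2 ^ s) m := by
      rw [← h10]
      exact h9
    rw [h11]
    show ((cR (boxPar M ℓ μ B J S H) mc ω vis hid (j + 2 ^ s - 2 ^ s) (i * M ^ 2 ^ s + m)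
      (C.lab j (i * M ^ 2 ^ s + m)) (b - Xi (boxPar M ℓ μ B J S H) ω (j + 2 ^ s) (2 ^ s) m -
        ((0 : ℕ) : ℤ)) (C.pos ((i * M ^ 2 ^ s + m) * M ^ j))
      (C.pos ((i * M ^ 2 ^ s + (m + 1)) * M ^ j)) : ℕ) : ℝ) =
      ((cR (boxPar M ℓ μ B J S H) mc ω vis hid j (i * M ^ 2 ^ s + m)
        (C.lab j (i * M ^ 2 ^ s + m)) (b - Xi (boxPar M ℓ μ B J S H) ω (j + 2 ^ s) (2 ^ s) m)
        (C.pos ((i * M ^ 2 ^ s + m) * M ^ j)) (C.pos ((i * M ^ 2 ^ s + m + 1) * M ^ j)) : ℕ) : ℝ)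
    rw [Nat.add_sub_cancel, Nat.cast_zero, sub_zero]
    rfl
  · intro j i b hj hi
    have h1 := hI.lower (rd (boxPar M ℓ μ B J S H) mc ω vis hid j i (C.lab j i) b) j i hj hi
    have e1 : (alongB C mc ω hI).DE j i - η * (alongB C mc ω hI).W j i =
        ∑ r ∈ range (M ^ j), (C.d (i * M ^ j + r) - η * C.w (i * M ^ j + r)) := by
      show bs M (fun r => C.d r + 0) j i - η * bs M C.w j i = _
      unfold bs
      rw [sum_sub_distrib, mul_sum]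
      simp only [add_zero]
    rw [e1]
    exact h1

end family

end Vale.Agent.P315.H381
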