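import Vale.Agent.P315.C.StructRd
import Vale.Agent.P315.H808.Along
import Vale.Agent.P315.H220.WD

/-!
P315, part C, row C-H3, the two-sided bound (H3a): the value of the cheapest node path seen by the
machines of a top lies between the excess of the top and the weighted average of the excesses of
the units, up to the rounding to the net of the machines.

Everything is over `H808.Along` and `C/Alg.lean`; the net (nodes, positions, labels) is abstract.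
-/

set_option autoImplicit false

open Finset

namespace Vale.Agent.P315.H381

open C H140 H808

/-! ### Sums over several levels -/

section sums

variable {M n : ℕ}

theorem bs_pow (M : ℕ) (f : ℕ → ℝ) (j e i : ℕ) :
    bs M f (j + e) i = ∑ m ∈ range (M ^ e), bs M f j (i * M ^ e + m) := by
  unfold bs
  have h : M ^ (j + e) = M ^ e * M ^ j := by rw [pow_add, mul_comm]
  rw [h, sum_range_mul (fun r => f (i * (M ^ e * M ^ j) + r))]
  refine sum_congr rfl fun m _ => sum_congr rfl fun r _ => ?_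
  congr 1
  ring

theorem desc_lt {j e i m : ℕ} (hj : j + e ≤ n) (hi : i < M ^ (n - (j + e))) (hm : m < M ^ e) :
    i * M ^ e + m < M ^ (n - j) := by
  have h1 : n - j = (n - (j + e)) + e := by omega
  rw [h1, pow_add]
  calc i * M ^ e + m < i * M ^ e + M ^ e := by omega
    _ = (i + 1) * M ^ e := by ring
    _ ≤ M ^ (n - (j + e)) * M ^ e := Nat.mul_le_mul_right _ hi

variable (A : Along M n)

theorem W_pow (j e i : ℕ) :
    A.W (j + e) i = ∑ m ∈ range (M ^ e), A.W j (i * M ^ e + m) := bs_pow _ _ _ _ _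

theorem DE_pow (j e i : ℕ) :
    A.DE (j + e) i = ∑ m ∈ range (M ^ e), A.DE j (i * M ^ e + m) := bs_pow _ _ _ _ _

/-- Weighted sum over the rows of a slab of a function of the unit, `e` levels. -/
theorem sum_desc (hM : 0 < M) {j e : ℕ} (hj : j + e ≤ n) {i : ℕ}
    (hi : i < M ^ (n - (j + e))) (g : ℕ → ℝ) :
    ∑ y ∈ univ.filter (fun y : Fin (M ^ n) => (y : ℕ) / M ^ (j + e) = i),
      A.w y * g ((y : ℕ) / M ^ j) =
      ∑ m ∈ range (M ^ e), A.W j (i * M ^ e + m) * g (i * M ^ e + m) := by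
  rw [sum_fib hM hj hi (fun y => A.w y * g (y / M ^ j)), bs_pow]
  refine sum_congr rfl fun m _ => ?_
  unfold Along.W bs
  rw [sum_mul]
  refine sum_congr rfl fun r hr => ?_
  have hp : 0 < M ^ j := Nat.pow_pos hM
  have : ((i * M ^ e + m) * M ^ j + r) / M ^ j = i * M ^ e + m := by
    rw [mul_comm, Nat.mul_add_div hp, Nat.div_eq_of_lt (mem_range.1 hr), add_zero]
  simp only [this]

/-- The weighted average of the excesses of the units. -/
theorem avg_units (hM : 0 < M) (lo : ℤ) {j e : ℕ} (hj : j + e ≤ n) (x : Fin (M ^ n)) (β : ℕ)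
    (sh : ℕ → ℕ) (hsh : ∀ y : ℕ, y / M ^ (j + e) = (x : ℕ) / M ^ (j + e) →
      A.S j y = A.S (j + e) x + sh (y / M ^ j)) :
    (∑ y ∈ univ.filter (fun y : Fin (M ^ n) => (y : ℕ) / M ^ (j + e) = (x : ℕ) / M ^ (j + e)),
        A.w y * A.e lo j y β) /
      (∑ y ∈ univ.filter (fun y : Fin (M ^ n) => (y : ℕ) / M ^ (j + e) = (x : ℕ) / M ^ (j + e)),
        A.w y) =
    (∑ m ∈ range (M ^ e), A.W j ((x : ℕ) / M ^ (j + e) * M ^ e + m) *
      A.ex j ((x : ℕ) / M ^ (j + e) * M ^ e + m) (lo + β - A.S (j + e) x -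
        sh ((x : ℕ) / M ^ (j + e) * M ^ e + m))) / A.W (j + e) ((x : ℕ) / M ^ (j + e)) := by
  set i := (x : ℕ) / M ^ (j + e) with hi
  have hil : i < M ^ (n - (j + e)) := Along.quot_lt hM hj x
  have h1 : ∑ y ∈ univ.filter (fun y : Fin (M ^ n) => (y : ℕ) / M ^ (j + e) = i),
      A.w y = A.W (j + e) i := sum_fib hM hj hil _
  rw [h1]
  congr 1
  rw [← sum_desc A hM hj hil (fun c => A.ex j c (lo + β - A.S (j + e) x - sh c))]
  refine sum_congr rfl fun y hy => ?_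
  have hy' : (y : ℕ) / M ^ (j + e) = i := (mem_filter.1 hy).2
  unfold Along.e
  rw [hsh y hy']
  congr 2
  push_cast
  ring

end sums

/-! ### The net and the value of the cheapest node path -/

section wz

variable (P : Par) (mc : Mach) (ω : Rnd) (vis hid : Leaf)

/-- Costs of the rows of the machine graph between the nodes of a net, at the own index `b` of the
top: the rows `1, …, K` are the units, the first and the last row are shifts. -/
noncomputable def UD (j i a s : ℕ) (lb zp : ℕ → ℕ) (b : ℤ) (m g g' : ℕ) : ℕ :=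
  if 1 ≤ m ∧ m ≤ P.M ^ 2 ^ s then
    cR P mc ω vis hid (j - 2 ^ s) (i * P.M ^ 2 ^ s + (m - 1)) (lb g)
      (b - Xi P ω j (2 ^ s) (m - 1) - P.pen j (2 ^ s) a (lb g)) (zp g) (zp g')
  else P.sh * Nat.dist (zp g) (zp g')

/-- Value of the cheapest node path. -/
noncomputable def WZ (j i a s p A0 B0 : ℕ) (lb zp : ℕ → ℕ) (b : ℤ) : ℕ :=
  H220.WD (P.M ^ 2 ^ s + 2) p A0 B0 (UD P mc ω vis hid j i a s lb zp b)

variable {P mc ω vis hid}

/-- The history of the machines. -/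
theorem hist_UD (j i a s κ : ℕ) (lb zp : ℕ → ℕ) :
    (fun m g g' => if 1 ≤ m ∧ m ≤ P.M ^ 2 ^ s then
        hist P ω vis hid (rd P mc ω vis hid) j i a s κ (m - 1) (lb g) (zp g) (zp g')
      else P.sh * Nat.dist (zp g) (zp g')) =
      UD P mc ω vis hid j i a s lb zp ((κ : ℤ) - P.H) := rfl

theorem UD_anti (hE : ∃ p q, Ed P p q) (hle : HidLe P vis hid) (j i a s : ℕ)
    (lb zp : ℕ → ℕ) {b b' : ℤ} (h : b ≤ b') (m g g' : ℕ) :
    UD P mc ω vis hid j i a s lb zp b' m g g' ≤ UD P mc ω vis hid j i a s lb zp b m g g' := by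
  unfold UD
  split_ifs
  · exact cR_anti hE hle (by omega) _ _ _ _ _
  · exact le_rfl

/-- Below `-j` the unit costs are constant. -/
theorem UD_neg {j s : ℕ} (hs : 2 ^ s ≤ j) (i a : ℕ) (lb zp : ℕ → ℕ) {b b' : ℤ}
    (h : b < -(j : ℤ) + 2 ^ s) (h' : b' < -(j : ℤ) + 2 ^ s) (m g g' : ℕ) :
    UD P mc ω vis hid j i a s lb zp b m g g' = UD P mc ω vis hid j i a s lb zp b' m g g' := by
  have h6 : ((j - 2 ^ s : ℕ) : ℤ) = (j : ℤ) - 2 ^ s := by
    rw [Nat.cast_sub hs]; push_cast; ring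
  have h7 : (0 : ℤ) ≤ Xi P ω j (2 ^ s) (m - 1) := by positivity
  have h8 : (0 : ℤ) ≤ P.pen j (2 ^ s) a (lb g) := by positivity
  unfold UD cR
  rw [rd_empty (by rw [h6]; linarith), rd_empty (by rw [h6]; linarith)]

theorem Ks_pos (hM : 0 < P.M) (s : ℕ) : 0 < P.M ^ 2 ^ s := pow_pos hM _

section

variable {j i a s p A0 B0 : ℕ} {lb zp : ℕ → ℕ}

theorem WZ_anti (hE : ∃ p q, Ed P p q) (hle : HidLe P vis hid) (hA : A0 < p)
    (hB : B0 < p) {b b' : ℤ} (h : b ≤ b') :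
    WZ P mc ω vis hid j i a s p A0 B0 lb zp b' ≤ WZ P mc ω vis hid j i a s p A0 B0 lb zp b :=
  H220.wd_mono (Nat.succ_pos _) hA hB fun m _ g _ g' _ => UD_anti hE hle j i a s lb zp h m g g'

theorem WZ_neg (hs : 2 ^ s ≤ j) {b b' : ℤ}
    (h : b < -(j : ℤ) + 2 ^ s) (h' : b' < -(j : ℤ) + 2 ^ s) :
    WZ P mc ω vis hid j i a s p A0 B0 lb zp b = WZ P mc ω vis hid j i a s p A0 B0 lb zp b' :=
  H220.wd_congr fun m _ g _ g' _ => UD_neg hs i a lb zp h h' m g g'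

/-- A sum over the rows of the machine graph. -/
theorem sum_rows (K : ℕ) (f : ℕ → ℕ) :
    ∑ m ∈ range (K + 2), f m = f 0 + ∑ m ∈ range K, f (m + 1) + f (K + 1) := by
  rw [sum_range_succ, sum_range_succ', add_comm (∑ m ∈ range K, f (m + 1))]

/-- The certified cost of the top is at most the value of the cheapest node path, up to the
shifts at the two ends. -/
theorem cR_le_WZ (hM : 0 < P.M) (hpen : PenOK P) (hE : ∃ p q, Ed P p q)
    (hle : HidLe P vis hid) (hs : 2 ^ s ≤ j) (hA : A0 < p) (hB : B0 < p)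
    (hlb : ∀ g < p, lb g ∈ P.desc j (2 ^ s) a) (b : ℤ) (u v : ℕ) :
    cR P mc ω vis hid j i a b u v ≤ WZ P mc ω vis hid j i a s p A0 B0 lb zp b +
      P.sh * Nat.dist u (zp A0) + P.sh * Nat.dist (zp B0) v := by
  obtain ⟨⟨g, g0, gK, hg, h1⟩, -⟩ := H220.wd_spec (p := p) (a := A0) (b := B0)
    (UD P mc ω vis hid j i a s lb zp b) (Nat.succ_pos (P.M ^ 2 ^ s + 1)) hA hB
  have h2 := cR_H1_pow (mc := mc) (ω := ω) (vis := vis) (hid := hid) hM hpen hE hle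
    (i := i) (a := a) hs b (fun m => lb (g (m + 1))) (fun m => zp (g (m + 1)))
    (fun m hm => hlb _ (hg (m + 1) (by omega)))
  have h3 : WZ P mc ω vis hid j i a s p A0 B0 lb zp b =
      P.sh * Nat.dist (zp A0) (zp (g 1)) +
      ∑ m ∈ range (P.M ^ 2 ^ s), cR P mc ω vis hid (j - 2 ^ s) (i * P.M ^ 2 ^ s + m)
        (lb (g (m + 1))) (b - Xi P ω j (2 ^ s) m - P.pen j (2 ^ s) a (lb (g (m + 1))))
        (zp (g (m + 1))) (zp (g (m + 1 + 1))) +
      P.sh * Nat.dist (zp (g (P.M ^ 2 ^ s + 1))) (zp B0) := by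
    unfold WZ
    rw [h1, sum_rows]
    congr 1
    · congr 1
      · unfold UD
        rw [if_neg (by omega), g0]
      · refine sum_congr rfl fun m hm => ?_
        have hm := mem_range.1 hm
        unfold UD
        rw [if_pos ⟨by omega, by omega⟩]
        rfl
    · unfold UD
      rw [if_neg (by omega)]
      have e1 : P.M ^ 2 ^ s + 1 + 1 = P.M ^ 2 ^ s + 2 := rfl
      rw [e1, gK]
  have h4 := cR_lip (mc := mc) (ω := ω) (vis := vis) (hid := hid) hE j i a b u (zp (g 1)) v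
    (zp (g (P.M ^ 2 ^ s + 1)))
  have h5 := Nat.mul_le_mul_left P.sh (Nat.dist.triangle_inequality u (zp A0) (zp (g 1)))
  have h6 := Nat.mul_le_mul_left P.sh
    (Nat.dist.triangle_inequality (zp (g (P.M ^ 2 ^ s + 1))) (zp B0) v)
  rw [Nat.mul_add] at h5 h6
  have h2' : cR P mc ω vis hid j i a b (zp (g 1)) (zp (g (P.M ^ 2 ^ s + 1))) ≤ _ := h2
  omega

/-- The value of the cheapest node path is at most the sum of the certified costs of the units of
a path which is rounded to the net, up to the rounding errors. -/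
theorem WZ_le (hE : ∃ p q, Ed P p q) {nd y pos : ℕ → ℕ} {dl dlc : ℕ}
    (hA : A0 < p) (hB : B0 < p) (hp : ∀ m ≤ P.M ^ 2 ^ s, nd m < p)
    (hy : ∀ m < P.M ^ 2 ^ s, lb (nd m) = y m)
    (hd : ∀ m ≤ P.M ^ 2 ^ s, Nat.dist (zp (nd m)) (pos m) ≤ dl)
    (hdA : Nat.dist (zp A0) (pos 0) ≤ dlc)
    (hdB : Nat.dist (zp B0) (pos (P.M ^ 2 ^ s)) ≤ dlc) (b : ℤ) :
    WZ P mc ω vis hid j i a s p A0 B0 lb zp b ≤
      ∑ m ∈ range (P.M ^ 2 ^ s), cR P mc ω vis hid (j - 2 ^ s) (i * P.M ^ 2 ^ s + m) (y m)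
        (b - Xi P ω j (2 ^ s) m - P.pen j (2 ^ s) a (y m)) (pos m) (pos (m + 1)) +
      ((P.M ^ 2 ^ s + 1) * (2 * (P.sh * dl)) + 2 * (P.sh * dlc)) := by
  set K := P.M ^ 2 ^ s with hK
  set g : ℕ → ℕ := fun m => if m = 0 then A0 else if m = K + 2 then B0 else nd (m - 1) with hg
  have g0 : g 0 = A0 := by rw [hg]; simp
  have gK : g (K + 2) = B0 := by rw [hg]; simp
  have gm : ∀ m ≤ K, g (m + 1) = nd m := by
    intro m hm
    rw [hg]
    show (if m + 1 = 0 then A0 else if m + 1 = K + 2 then B0 else nd (m + 1 - 1)) = nd m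
    rw [if_neg (by omega), if_neg (by omega), Nat.add_sub_cancel]
  have gp : ∀ m ≤ K + 2, g m < p := by
    intro m hm
    rcases Nat.eq_zero_or_pos m with rfl | h0
    · rw [g0]; exact hA
    · obtain ⟨m', rfl⟩ : ∃ m', m = m' + 1 := ⟨m - 1, by omega⟩
      rcases Nat.lt_or_ge m' (K + 1) with h1 | h1
      · rw [gm m' (by omega)]; exact hp m' (by omega)
      · obtain rfl : m' = K + 1 := by omega
        rw [gK]; exact hB
  refine ((H220.wd_spec (p := p) (a := A0) (b := B0)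
    (UD P mc ω vis hid j i a s lb zp b) (Nat.succ_pos (K + 1)) hA hB).2 g g0 gK gp).trans ?_
  rw [sum_rows]
  have e0 : UD P mc ω vis hid j i a s lb zp b 0 (g 0) (g (0 + 1)) ≤
      P.sh * dlc + P.sh * dl := by
    unfold UD
    rw [if_neg (by omega), g0, gm 0 (Nat.zero_le _), ← Nat.mul_add]
    refine Nat.mul_le_mul_left _ ?_
    have h1 := Nat.dist.triangle_inequality (zp A0) (pos 0) (zp (nd 0))
    have h2 := hd 0 (Nat.zero_le _)
    rw [Nat.dist_comm] at h2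
    omega
  have e1 : UD P mc ω vis hid j i a s lb zp b (K + 1) (g (K + 1)) (g (K + 1 + 1)) ≤
      P.sh * dlc + P.sh * dl := by
    unfold UD
    rw [if_neg (by omega), show K + 1 + 1 = K + 2 from rfl, gK, gm K le_rfl, ← Nat.mul_add]
    refine Nat.mul_le_mul_left _ ?_
    have h1 := Nat.dist.triangle_inequality (zp (nd K)) (pos K) (zp B0)
    have h2 := hd K le_rfl
    rw [Nat.dist_comm] at hdB
    omega
  have e2 : ∑ m ∈ range K, UD P mc ω vis hid j i a s lb zp b (m + 1) (g (m + 1)) (g (m + 1 + 1)) ≤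
      ∑ m ∈ range K, cR P mc ω vis hid (j - 2 ^ s) (i * K + m) (y m)
        (b - Xi P ω j (2 ^ s) m - P.pen j (2 ^ s) a (y m)) (pos m) (pos (m + 1)) +
      K * (2 * (P.sh * dl)) := by
    have h1 : ∑ m ∈ range K, (2 * (P.sh * dl)) = K * (2 * (P.sh * dl)) := by simp
    rw [← h1, ← sum_add_distrib]
    refine sum_le_sum fun m hm => ?_
    have hm := mem_range.1 hm
    unfold UD
    rw [← hK, if_pos ⟨by omega, by omega⟩, gm m hm.le, gm (m + 1) hm, hy m hm,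
      Nat.add_sub_cancel]
    have h2 := cR_lip (mc := mc) (ω := ω) (vis := vis) (hid := hid) hE (j - 2 ^ s)
      (i * K + m) (y m) (b - Xi P ω j (2 ^ s) m - P.pen j (2 ^ s) a (y m))
      (zp (nd m)) (pos m) (zp (nd (m + 1))) (pos (m + 1))
    have h3 := Nat.mul_le_mul_left P.sh (hd m hm.le)
    have h4 := Nat.mul_le_mul_left P.sh (hd (m + 1) hm)
    rw [Nat.dist_comm] at h4
    omega
  have e3 : (K + 1) * (2 * (P.sh * dl)) = K * (2 * (P.sh * dl)) + 2 * (P.sh * dl) := by ring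
  omega

end

end wz

/-! ### The two-sided bound -/

/-- A run of the algorithm and the comparison path; `eps1` = how much the certified cost of a
slab may lie below the price of the path. -/
structure Ctx (P : Par) (mc : Mach) (ω : Rnd) (vis hid : Leaf) (n : ℕ) (A : Along P.M n)
    (lab : ℕ → ℕ → ℕ) (pos : ℕ → ℕ) (eps1 : ℝ) : Prop where
  hM : 0 < P.M
  hpen : PenOK P
  hE : ∃ p q, Ed P p q
  hle : HidLe P vis hid
  hC : ∀ j i b, A.C j i b = cR P mc ω vis hid j i (lab j i) b (pos (i * P.M ^ j))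
    (pos ((i + 1) * P.M ^ j))
  hS : ∀ s j x, j + 2 ^ s ≤ n → A.S j x = A.S (j + 2 ^ s) x +
    (Xi P ω (j + 2 ^ s) (2 ^ s) (x / P.M ^ j) +
      P.pen (j + 2 ^ s) (2 ^ s) (lab (j + 2 ^ s) (x / P.M ^ (j + 2 ^ s))) (lab j (x / P.M ^ j)))
  hlow : ∀ j i b, j ≤ n → i < P.M ^ (n - j) → A.DE j i - eps1 * A.W j i ≤ A.C j i b

/-- Nets of the machines: `p s j` nodes for the tops of level `j` at scale `s`; position and label
of a node of the region with label `a`; for slab `i`: `nd s j i m` = node of the comparison path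
at the boundary number `m` of the units, `en`, `ex` = entry and exit node; `dl`, `dlc` = rounding
errors. -/
structure Net (P : Par) (n : ℕ) (lab : ℕ → ℕ → ℕ) (pos : ℕ → ℕ) where
  p : ℕ → ℕ → ℕ
  zp : ℕ → ℕ → ℕ → ℕ → ℕ
  lb : ℕ → ℕ → ℕ → ℕ → ℕ
  dl : ℕ → ℕ → ℕ
  dlc : ℕ → ℕ → ℕ
  nd : ℕ → ℕ → ℕ → ℕ → ℕ
  en : ℕ → ℕ → ℕ → ℕ
  ex : ℕ → ℕ → ℕ → ℕ
  lb_mem : ∀ s j i, j + 2 ^ s ≤ n → i < P.M ^ (n - (j + 2 ^ s)) → ∀ g < p s (j + 2 ^ s),
    lb s (j + 2 ^ s) (lab (j + 2 ^ s) i) g ∈ P.desc (j + 2 ^ s) (2 ^ s) (lab (j + 2 ^ s) i)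
  nd_lt : ∀ s j i, j + 2 ^ s ≤ n → i < P.M ^ (n - (j + 2 ^ s)) → ∀ m ≤ P.M ^ 2 ^ s,
    nd s (j + 2 ^ s) i m < p s (j + 2 ^ s)
  en_lt : ∀ s j i, j + 2 ^ s ≤ n → i < P.M ^ (n - (j + 2 ^ s)) →
    en s (j + 2 ^ s) i < p s (j + 2 ^ s)
  ex_lt : ∀ s j i, j + 2 ^ s ≤ n → i < P.M ^ (n - (j + 2 ^ s)) →
    ex s (j + 2 ^ s) i < p s (j + 2 ^ s)
  nd_lb : ∀ s j i, j + 2 ^ s ≤ n → i < P.M ^ (n - (j + 2 ^ s)) → ∀ m < P.M ^ 2 ^ s,
    lb s (j + 2 ^ s) (lab (j + 2 ^ s) i) (nd s (j + 2 ^ s) i m) = lab j (i * P.M ^ 2 ^ s + m)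
  nd_pos : ∀ s j i, j + 2 ^ s ≤ n → i < P.M ^ (n - (j + 2 ^ s)) → ∀ m ≤ P.M ^ 2 ^ s,
    Nat.dist (zp s (j + 2 ^ s) (lab (j + 2 ^ s) i) (nd s (j + 2 ^ s) i m))
      (pos ((i * P.M ^ 2 ^ s + m) * P.M ^ j)) ≤ dl s (j + 2 ^ s)
  en_pos : ∀ s j i, j + 2 ^ s ≤ n → i < P.M ^ (n - (j + 2 ^ s)) →
    Nat.dist (zp s (j + 2 ^ s) (lab (j + 2 ^ s) i) (en s (j + 2 ^ s) i))
      (pos (i * P.M ^ (j + 2 ^ s))) ≤ dlc s (j + 2 ^ s)
  ex_pos : ∀ s j i, j + 2 ^ s ≤ n → i < P.M ^ (n - (j + 2 ^ s)) →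
    Nat.dist (zp s (j + 2 ^ s) (lab (j + 2 ^ s) i) (ex s (j + 2 ^ s) i))
      (pos ((i + 1) * P.M ^ (j + 2 ^ s))) ≤ dlc s (j + 2 ^ s)

namespace Net

variable {P : Par} {mc : Mach} {ω : Rnd} {vis hid : Leaf} {n : ℕ} {A : Along P.M n}
  {lab : ℕ → ℕ → ℕ} {pos : ℕ → ℕ} {eps1 : ℝ} (N : Net P n lab pos)

variable (mc ω vis hid) in
/-- The value which the machines of scale `s` with the ends of the comparison path see, at the
own index `b` of the top `(j, i)`. -/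
noncomputable def WN (s j i : ℕ) (b : ℤ) : ℕ :=
  WZ P mc ω vis hid j i (lab j i) s (N.p s j) (N.en s j i) (N.ex s j i)
    (N.lb s j (lab j i)) (N.zp s j (lab j i)) b

/-- The value as seen by the machines in round `κ`. -/
theorem wd_hist (j i s κ : ℕ) :
    H220.WD (P.M ^ 2 ^ s + 2) (N.p s j) (N.en s j i) (N.ex s j i)
      (fun m g g' => if 1 ≤ m ∧ m ≤ P.M ^ 2 ^ s then
        hist P ω vis hid (rd P mc ω vis hid) j i (lab j i) s κ (m - 1)
          (N.lb s j (lab j i) g) (N.zp s j (lab j i) g) (N.zp s j (lab j i) g')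
        else P.sh * Nat.dist (N.zp s j (lab j i) g) (N.zp s j (lab j i) g')) =
      N.WN mc ω vis hid s j i ((κ : ℤ) - P.H) := rfl

theorem WN_anti (c : Ctx P mc ω vis hid n A lab pos eps1) {s j i : ℕ} (hj : j + 2 ^ s ≤ n)
    (hi : i < P.M ^ (n - (j + 2 ^ s))) {b b' : ℤ} (h : b ≤ b') :
    N.WN mc ω vis hid s (j + 2 ^ s) i b' ≤ N.WN mc ω vis hid s (j + 2 ^ s) i b :=
  WZ_anti c.hE c.hle (N.en_lt s j i hj hi) (N.ex_lt s j i hj hi) h

/-- Below the index `-j` (`j` = level of the units) the value is constant. -/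
theorem WN_neg {s j i : ℕ} {b b' : ℤ} (h : b < -(j : ℤ)) (h' : b' < -(j : ℤ)) :
    N.WN mc ω vis hid s (j + 2 ^ s) i b = N.WN mc ω vis hid s (j + 2 ^ s) i b' :=
  WZ_neg (Nat.le_add_left _ _) (by push_cast; linarith) (by push_cast; linarith)

/-- If the machines start early enough, every index has its round. -/
theorem WN_round {s j i : ℕ} (hj : j < P.H) (b : ℤ) :
    N.WN mc ω vis hid s (j + 2 ^ s) i b =
      N.WN mc ω vis hid s (j + 2 ^ s) i (((b + P.H).toNat : ℤ) - P.H) := by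
  rcases le_total (-(P.H : ℤ)) b with h | h
  · rw [Int.toNat_of_nonneg (by linarith)]
    congr 1
    ring
  · rw [Int.toNat_of_nonpos (by linarith)]
    exact N.WN_neg (by omega) (by push_cast; omega)

/-- Lower side. -/
theorem C_le_WN (c : Ctx P mc ω vis hid n A lab pos eps1) {s j i : ℕ} (hj : j + 2 ^ s ≤ n)
    (hi : i < P.M ^ (n - (j + 2 ^ s))) (b : ℤ) :
    A.C (j + 2 ^ s) i b ≤ N.WN mc ω vis hid s (j + 2 ^ s) i b +
      2 * (P.sh * N.dlc s (j + 2 ^ s)) := by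
  have h1 := cR_le_WZ (mc := mc) (ω := ω) (vis := vis) (hid := hid)
    (zp := N.zp s (j + 2 ^ s) (lab (j + 2 ^ s) i)) (i := i) c.hM c.hpen c.hE c.hle
    (Nat.le_add_left (2 ^ s) j) (N.en_lt s j i hj hi)
    (N.ex_lt s j i hj hi) (N.lb_mem s j i hj hi) b (pos (i * P.M ^ (j + 2 ^ s)))
    (pos ((i + 1) * P.M ^ (j + 2 ^ s)))
  have h2 := N.en_pos s j i hj hi
  have h3 := N.ex_pos s j i hj hi
  rw [Nat.dist_comm] at h2
  have h4 := Nat.mul_le_mul_left P.sh h2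
  have h5 := Nat.mul_le_mul_left P.sh h3
  rw [c.hC]
  have h6 : cR P mc ω vis hid (j + 2 ^ s) i (lab (j + 2 ^ s) i) b (pos (i * P.M ^ (j + 2 ^ s)))
      (pos ((i + 1) * P.M ^ (j + 2 ^ s))) ≤ N.WN mc ω vis hid s (j + 2 ^ s) i b +
      2 * (P.sh * N.dlc s (j + 2 ^ s)) := by
    unfold WN
    omega
  exact_mod_cast h6

/-- Shift between the top and the slab `c` of level `j`, `2 ^ s` levels below. -/
def shu (P : Par) (ω : Rnd) (lab : ℕ → ℕ → ℕ) (s j c : ℕ) : ℕ :=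
  Xi P ω (j + 2 ^ s) (2 ^ s) c +
    P.pen (j + 2 ^ s) (2 ^ s) (lab (j + 2 ^ s) (c / P.M ^ 2 ^ s)) (lab j c)

/-- Upper side. -/
theorem WN_le (c : Ctx P mc ω vis hid n A lab pos eps1) {s j i : ℕ} (hj : j + 2 ^ s ≤ n)
    (hi : i < P.M ^ (n - (j + 2 ^ s))) (b : ℤ) :
    (N.WN mc ω vis hid s (j + 2 ^ s) i b : ℝ) ≤
      ∑ m ∈ range (P.M ^ 2 ^ s), A.C j (i * P.M ^ 2 ^ s + m)
        (b - shu P ω lab s j (i * P.M ^ 2 ^ s + m)) +
      (((P.M : ℝ) ^ 2 ^ s + 1) * (2 * (P.sh * N.dl s (j + 2 ^ s))) +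
        2 * (P.sh * N.dlc s (j + 2 ^ s))) := by
  have hA := N.en_pos s j i hj hi
  have hB := N.ex_pos s j i hj hi
  have e1 : (i * P.M ^ 2 ^ s + 0) * P.M ^ j = i * P.M ^ (j + 2 ^ s) := by rw [pow_add]; ring
  have e2 : (i * P.M ^ 2 ^ s + P.M ^ 2 ^ s) * P.M ^ j = (i + 1) * P.M ^ (j + 2 ^ s) := by
    rw [pow_add]; ring
  rw [← e1] at hA
  rw [← e2] at hB
  have h1 := WZ_le (mc := mc) (ω := ω) (vis := vis) (hid := hid) (j := j + 2 ^ s) (i := i)
    (a := lab (j + 2 ^ s) i) (p := N.p s (j + 2 ^ s)) (s := s)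
    (lb := N.lb s (j + 2 ^ s) (lab (j + 2 ^ s) i)) (zp := N.zp s (j + 2 ^ s) (lab (j + 2 ^ s) i))
    (nd := N.nd s (j + 2 ^ s) i) (y := fun m => lab j (i * P.M ^ 2 ^ s + m))
    (pos := fun m => pos ((i * P.M ^ 2 ^ s + m) * P.M ^ j)) c.hE (N.en_lt s j i hj hi)
    (N.ex_lt s j i hj hi) (N.nd_lt s j i hj hi) (N.nd_lb s j i hj hi) (N.nd_pos s j i hj hi)
    hA hB b
  have h2 : N.WN mc ω vis hid s (j + 2 ^ s) i b ≤ _ := h1
  have h3 : (N.WN mc ω vis hid s (j + 2 ^ s) i b : ℝ) ≤ _ := Nat.cast_le.2 h2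
  refine h3.trans (le_of_eq ?_)
  push_cast
  congr 1
  refine sum_congr rfl fun m hm => ?_
  have hm := mem_range.1 hm
  rw [c.hC, Nat.add_sub_cancel]
  have e1 : (i * P.M ^ 2 ^ s + m) / P.M ^ 2 ^ s = i := by
    rw [mul_comm, Nat.mul_add_div (Ks_pos c.hM s), Nat.div_eq_of_lt hm, add_zero]
  have e2 : ((Xi P ω (j + 2 ^ s) (2 ^ s) (i * P.M ^ 2 ^ s + m) +
      P.pen (j + 2 ^ s) (2 ^ s) (lab (j + 2 ^ s) i) (lab j (i * P.M ^ 2 ^ s + m)) : ℕ) : ℤ) =
      Xi P ω (j + 2 ^ s) (2 ^ s) m +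
      P.pen (j + 2 ^ s) (2 ^ s) (lab (j + 2 ^ s) i) (lab j (i * P.M ^ 2 ^ s + m)) := by
    rw [Xi_mul_add c.hM]
    push_cast
    ring
  have e3 : b - (shu P ω lab s j (i * P.M ^ 2 ^ s + m) : ℕ) =
      b - Xi P ω (j + 2 ^ s) (2 ^ s) m -
      P.pen (j + 2 ^ s) (2 ^ s) (lab (j + 2 ^ s) i) (lab j (i * P.M ^ 2 ^ s + m)) := by
    unfold shu
    rw [e1, e2]
    ring
  rw [e3]
  rfl

variable (A mc ω vis hid) in
/-- Normalised value at the own index. -/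
noncomputable def raw (s j i : ℕ) (b : ℤ) : ℝ :=
  ((N.WN mc ω vis hid s j i b : ℝ) - A.DE j i) / A.W j i

variable (A mc ω vis hid) in
/-- The value of the machines of the top `(a + 1) 2 ^ s` at the static index. -/
noncomputable def om (lo : ℤ) (s a : ℕ) (x β : ℕ) : ℝ :=
  if (a + 1) * 2 ^ s ≤ n then
    N.raw mc ω vis hid A s ((a + 1) * 2 ^ s) (x / P.M ^ ((a + 1) * 2 ^ s))
      (lo + β - A.S ((a + 1) * 2 ^ s) x)
  else 0

/-- The precision: all rounding errors together, normalised. -/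
def Prec (A : Along P.M n) (tau : ℕ → ℝ) : Prop := ∀ s j i, j + 2 ^ s ≤ n →
  i < P.M ^ (n - (j + 2 ^ s)) →
    ((P.M : ℝ) ^ 2 ^ s + 1) * (2 * (P.sh * N.dl s (j + 2 ^ s))) +
      2 * (P.sh * N.dlc s (j + 2 ^ s)) ≤ tau s * A.W (j + 2 ^ s) i

variable {N}

theorem Prec.two {tau : ℕ → ℝ} (h : N.Prec A tau) {s j i : ℕ}
    (hj : j + 2 ^ s ≤ n) (hi : i < P.M ^ (n - (j + 2 ^ s))) :
    2 * (P.sh * N.dlc s (j + 2 ^ s) : ℝ) ≤ tau s * A.W (j + 2 ^ s) i := by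
  refine le_trans ?_ (h s j i hj hi)
  have h1 : (0 : ℝ) ≤ ((P.M : ℝ) ^ 2 ^ s + 1) * (2 * (P.sh * N.dl s (j + 2 ^ s))) := by
    positivity
  linarith

variable (N)

theorem raw_anti (c : Ctx P mc ω vis hid n A lab pos eps1) {s j i : ℕ} (hj : j + 2 ^ s ≤ n)
    (hi : i < P.M ^ (n - (j + 2 ^ s))) {b b' : ℤ} (h : b ≤ b') :
    N.raw mc ω vis hid A s (j + 2 ^ s) i b' ≤ N.raw mc ω vis hid A s (j + 2 ^ s) i b := by
  unfold raw
  refine div_le_div_of_nonneg_right ?_ (A.W_pos c.hM _ _).le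
  have h1 : (N.WN mc ω vis hid s (j + 2 ^ s) i b' : ℝ) ≤ N.WN mc ω vis hid s (j + 2 ^ s) i b := by
    exact_mod_cast N.WN_anti c hj hi h
  linarith

/-- The value is never much below `0`. -/
theorem raw_ge (c : Ctx P mc ω vis hid n A lab pos eps1) {tau : ℕ → ℝ} (ht : N.Prec A tau)
    {s j i : ℕ} (hj : j + 2 ^ s ≤ n) (hi : i < P.M ^ (n - (j + 2 ^ s))) (b : ℤ) :
    -(tau s + eps1) ≤ N.raw mc ω vis hid A s (j + 2 ^ s) i b := by
  unfold raw
  have hW := A.W_pos c.hM (j + 2 ^ s) i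
  rw [le_div_iff₀ hW]
  have h1 := N.C_le_WN c hj hi b
  have h2 := ht.two hj hi
  have h3 := c.hlow (j + 2 ^ s) i b hj hi
  linarith

/-- The excess of the top is at most the value plus the precision. -/
theorem ex_le_raw (c : Ctx P mc ω vis hid n A lab pos eps1) {tau : ℕ → ℝ} (ht : N.Prec A tau)
    {s j i : ℕ} (hj : j + 2 ^ s ≤ n) (hi : i < P.M ^ (n - (j + 2 ^ s))) (he : 0 ≤ eps1)
    (b : ℤ) :
    A.ex (j + 2 ^ s) i b ≤ N.raw mc ω vis hid A s (j + 2 ^ s) i b + (tau s + eps1) := by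
  have h0 := N.raw_ge c ht hj hi b
  refine max_le (by linarith) ?_
  have h1 : (A.C (j + 2 ^ s) i b - A.DE (j + 2 ^ s) i) / A.W (j + 2 ^ s) i ≤
      N.raw mc ω vis hid A s (j + 2 ^ s) i b + tau s := by
    unfold raw
    have hW := A.W_pos c.hM (j + 2 ^ s) i
    rw [div_add' _ _ _ hW.ne']
    refine div_le_div_of_nonneg_right ?_ hW.le
    have h1 := N.C_le_WN c hj hi b
    have h2 := ht.two hj hi
    linarith
  linarith

/-- The value is at most the weighted average of the excesses of the units plus the precision. -/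
theorem raw_le_avg (c : Ctx P mc ω vis hid n A lab pos eps1) {tau : ℕ → ℝ} (ht : N.Prec A tau)
    {s j i : ℕ} (hj : j + 2 ^ s ≤ n) (hi : i < P.M ^ (n - (j + 2 ^ s))) (b : ℤ) :
    N.raw mc ω vis hid A s (j + 2 ^ s) i b ≤
      (∑ m ∈ range (P.M ^ 2 ^ s), A.W j (i * P.M ^ 2 ^ s + m) *
        A.ex j (i * P.M ^ 2 ^ s + m) (b - shu P ω lab s j (i * P.M ^ 2 ^ s + m))) /
        A.W (j + 2 ^ s) i + tau s := by
  unfold raw
  have hW := A.W_pos c.hM (j + 2 ^ s) i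
  rw [div_add' _ _ _ hW.ne']
  refine div_le_div_of_nonneg_right ?_ hW.le
  have h1 := N.WN_le c hj hi b
  have h2 := ht s j i hj hi
  have h3 : ∑ m ∈ range (P.M ^ 2 ^ s), A.C j (i * P.M ^ 2 ^ s + m)
        (b - shu P ω lab s j (i * P.M ^ 2 ^ s + m)) ≤
      ∑ m ∈ range (P.M ^ 2 ^ s), (A.DE j (i * P.M ^ 2 ^ s + m) +
        A.W j (i * P.M ^ 2 ^ s + m) * A.ex j (i * P.M ^ 2 ^ s + m)
        (b - shu P ω lab s j (i * P.M ^ 2 ^ s + m))) :=
    sum_le_sum fun m _ => A.C_le_ex c.hM _ _ _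
  rw [sum_add_distrib, ← DE_pow] at h3
  linarith

theorem raw_le_one (c : Ctx P mc ω vis hid n A lab pos eps1) {tau : ℕ → ℝ} (ht : N.Prec A tau)
    {s j i : ℕ} (hj : j + 2 ^ s ≤ n) (hi : i < P.M ^ (n - (j + 2 ^ s))) (b : ℤ) :
    N.raw mc ω vis hid A s (j + 2 ^ s) i b ≤ 1 + tau s := by
  refine (N.raw_le_avg c ht hj hi b).trans ?_
  have hW := A.W_pos c.hM (j + 2 ^ s) i
  have h1 : (∑ m ∈ range (P.M ^ 2 ^ s), A.W j (i * P.M ^ 2 ^ s + m) *
        A.ex j (i * P.M ^ 2 ^ s + m) (b - shu P ω lab s j (i * P.M ^ 2 ^ s + m))) /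
        A.W (j + 2 ^ s) i ≤ 1 := by
    rw [div_le_one hW, W_pow]
    refine sum_le_sum fun m hm => ?_
    have h2 := A.ex_le_one c.hM (b - shu P ω lab s j (i * P.M ^ 2 ^ s + m))
      (le_trans (Nat.le_add_right _ _) hj) (desc_lt hj hi (mem_range.1 hm))
    have h3 := A.W_pos c.hM j (i * P.M ^ 2 ^ s + m)
    nlinarith
  linarith

/-! ### Static index -/

variable (A mc ω vis hid) in
theorem om_meas (lo : ℤ) (s a : ℕ) {x y : ℕ}
    (h : x / P.M ^ ((a + 1) * 2 ^ s) = y / P.M ^ ((a + 1) * 2 ^ s)) :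
    N.om mc ω vis hid A lo s a x = N.om mc ω vis hid A lo s a y := by
  funext β
  unfold om
  rw [h, A.S_congr h]

theorem lev_eq (a s : ℕ) : (a + 1) * 2 ^ s = a * 2 ^ s + 2 ^ s := by ring

theorem om_anti (c : Ctx P mc ω vis hid n A lab pos eps1) (lo : ℤ) (s a : ℕ)
    (x : Fin (P.M ^ n)) : Antitone (N.om mc ω vis hid A lo s a x) := by
  intro β β' h
  unfold om
  split_ifs with hj
  · rw [lev_eq] at hj ⊢
    refine N.raw_anti c hj (Along.quot_lt c.hM hj x) ?_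
    have : (β : ℤ) ≤ β' := by exact_mod_cast h
    linarith
  · exact le_rfl

/-- (H3a), lower side. -/
theorem e_le_om (c : Ctx P mc ω vis hid n A lab pos eps1) {tau : ℕ → ℝ} (ht : N.Prec A tau)
    (he : 0 ≤ eps1) (lo : ℤ) {s a : ℕ} (hj : (a + 1) * 2 ^ s ≤ n) (x : Fin (P.M ^ n)) (β : ℕ) :
    A.e lo ((a + 1) * 2 ^ s) x β ≤ N.om mc ω vis hid A lo s a x β + (tau s + eps1) := by
  unfold om
  rw [if_pos hj]
  rw [lev_eq] at hj ⊢
  exact N.ex_le_raw c ht hj (Along.quot_lt c.hM hj x) he _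

/-- (H3a), upper side. -/
theorem om_le_avg (c : Ctx P mc ω vis hid n A lab pos eps1) {tau : ℕ → ℝ} (ht : N.Prec A tau)
    (lo : ℤ) {s a : ℕ} (hj : (a + 1) * 2 ^ s ≤ n) (x : Fin (P.M ^ n)) (β : ℕ) :
    N.om mc ω vis hid A lo s a x β ≤
      (∑ y ∈ univ.filter (fun y : Fin (P.M ^ n) =>
          (y : ℕ) / P.M ^ ((a + 1) * 2 ^ s) = (x : ℕ) / P.M ^ ((a + 1) * 2 ^ s)),
        A.w y * A.e lo (a * 2 ^ s) y β) /
      (∑ y ∈ univ.filter (fun y : Fin (P.M ^ n) =>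
          (y : ℕ) / P.M ^ ((a + 1) * 2 ^ s) = (x : ℕ) / P.M ^ ((a + 1) * 2 ^ s)),
        A.w y) + tau s := by
  unfold om
  rw [if_pos hj]
  rw [lev_eq] at hj ⊢
  have hi := Along.quot_lt c.hM hj x
  rw [avg_units A c.hM lo hj x β (shu P ω lab s (a * 2 ^ s)) ?_]
  · exact N.raw_le_avg c ht hj hi _
  · intro y hy
    have h1 := c.hS s (a * 2 ^ s) y hj
    rw [h1, A.S_congr hy]
    unfold shu
    have e1 : y / P.M ^ (a * 2 ^ s) / P.M ^ 2 ^ s = y / P.M ^ (a * 2 ^ s + 2 ^ s) := by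
      rw [Nat.div_div_eq_div_mul, ← pow_add]
    rw [e1]

end Net

end Vale.Agent.P315.H381
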