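import Vale.Agent.P315.H381.H3a
import Vale.Agent.P315.H838.LhsW

/-!
P315, row C-H3, (H3a): the machine values of the accounting theorem from an arbitrary family `WZ`
of values (scale, level of the top, slab, own index of the top) which lies between the certified
cost of the top and the sum of the certified costs of its units, up to `tau W`.
-/

set_option autoImplicit false

open Finset

namespace Vale.Agent.P315.H381

open H808

variable {M n : ℕ}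

/-- Values of the machines: between the cost of the top and the sum of the costs of the units.
`eps` = how much a certified cost may lie below the price of the comparison path. -/
structure ZFam (A : Along M n) (smax : ℕ) (WZ : ℕ → ℕ → ℕ → ℤ → ℝ) (tau : ℕ → ℝ) (eps : ℝ) :
    Prop where
  tau_nonneg : ∀ s, 0 ≤ tau s
  eps_nonneg : 0 ≤ eps
  anti : ∀ s j i, s ≤ smax → j + 2 ^ s ≤ n → i < M ^ (n - (j + 2 ^ s)) →
    Antitone (WZ s (j + 2 ^ s) i)
  le_W : ∀ s j i b, s ≤ smax → j + 2 ^ s ≤ n → i < M ^ (n - (j + 2 ^ s)) →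
    A.C (j + 2 ^ s) i b ≤ WZ s (j + 2 ^ s) i b + tau s * A.W (j + 2 ^ s) i
  W_le : ∀ s j i b, s ≤ smax → j + 2 ^ s ≤ n → i < M ^ (n - (j + 2 ^ s)) →
    WZ s (j + 2 ^ s) i b ≤ ∑ u ∈ range (M ^ 2 ^ s), A.C j (i * M ^ 2 ^ s + u)
      (b - A.US j (2 ^ s) (i * M ^ 2 ^ s + u)) + tau s * A.W (j + 2 ^ s) i
  low : ∀ j i b, j ≤ n → i < M ^ (n - j) → A.DE j i - eps * A.W j i ≤ A.C j i b

namespace ZFam

variable {A : Along M n} {smax : ℕ} {WZ : ℕ → ℕ → ℕ → ℤ → ℝ} {tau : ℕ → ℝ} {eps : ℝ}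

/-- Normalised value at the own index `b` of the top of level `a * 2 ^ s + 2 ^ s`. -/
noncomputable def raw (A : Along M n) (WZ : ℕ → ℕ → ℕ → ℤ → ℝ) (s a i : ℕ) (b : ℤ) : ℝ :=
  (WZ s (a * 2 ^ s + 2 ^ s) i b - A.DE (a * 2 ^ s + 2 ^ s) i) / A.W (a * 2 ^ s + 2 ^ s) i

/-- Normalised value at the static index `b`. -/
noncomputable def om (A : Along M n) (smax : ℕ) (WZ : ℕ → ℕ → ℕ → ℤ → ℝ) (lo : ℤ)
    (s a x b : ℕ) : ℝ :=
  if s ≤ smax ∧ a * 2 ^ s + 2 ^ s ≤ n then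
    raw A WZ s a (x / M ^ (a * 2 ^ s + 2 ^ s)) (A.own lo s a x b)
  else 0

theorem om_meas (lo : ℤ) (s a : ℕ) {x y : ℕ}
    (h : x / M ^ (a * 2 ^ s + 2 ^ s) = y / M ^ (a * 2 ^ s + 2 ^ s)) :
    om A smax WZ lo s a x = om A smax WZ lo s a y := by
  funext b
  unfold om Along.own
  rw [h, A.S_congr h]

theorem lev_eq (a s : ℕ) : (a + 1) * 2 ^ s = a * 2 ^ s + 2 ^ s := by ring

variable (Z : ZFam A smax WZ tau eps)

include Z

theorem raw_anti (hM : 0 < M) {s a i : ℕ} (hs : s ≤ smax) (hj : a * 2 ^ s + 2 ^ s ≤ n)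
    (hi : i < M ^ (n - (a * 2 ^ s + 2 ^ s))) : Antitone (raw A WZ s a i) := by
  intro b b' h
  unfold raw
  refine div_le_div_of_nonneg_right ?_ (A.W_pos hM _ _).le
  have := Z.anti s (a * 2 ^ s) i hs hj hi h
  linarith

theorem om_anti (hM : 0 < M) (lo : ℤ) (s a : ℕ) (x : Fin (M ^ n)) :
    Antitone (om A smax WZ lo s a x) := by
  intro b b' h
  unfold om
  split_ifs with hj
  · refine Z.raw_anti hM hj.1 hj.2 (Along.quot_lt hM hj.2 x) ?_
    unfold Along.own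
    have : (b : ℤ) ≤ b' := by exact_mod_cast h
    linarith
  · exact le_rfl

theorem raw_ge (hM : 0 < M) {s a i : ℕ} (hs : s ≤ smax) (hj : a * 2 ^ s + 2 ^ s ≤ n)
    (hi : i < M ^ (n - (a * 2 ^ s + 2 ^ s))) (b : ℤ) : -(tau s + eps) ≤ raw A WZ s a i b := by
  unfold raw
  have hW := A.W_pos hM (a * 2 ^ s + 2 ^ s) i
  rw [le_div_iff₀ hW]
  have h1 := Z.le_W s (a * 2 ^ s) i b hs hj hi
  have h3 := Z.low (a * 2 ^ s + 2 ^ s) i b hj hi
  linarith

/-- The excess of the top is at most the value plus the precision. -/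
theorem ex_le_raw (hM : 0 < M) {s a i : ℕ} (hs : s ≤ smax) (hj : a * 2 ^ s + 2 ^ s ≤ n)
    (hi : i < M ^ (n - (a * 2 ^ s + 2 ^ s))) (b : ℤ) :
    A.ex (a * 2 ^ s + 2 ^ s) i b ≤ raw A WZ s a i b + (tau s + eps) := by
  have h0 := Z.raw_ge hM hs hj hi b
  refine max_le (by linarith) ?_
  have h1 : (A.C (a * 2 ^ s + 2 ^ s) i b - A.DE (a * 2 ^ s + 2 ^ s) i) /
      A.W (a * 2 ^ s + 2 ^ s) i ≤ raw A WZ s a i b + tau s := by
    unfold raw
    have hW := A.W_pos hM (a * 2 ^ s + 2 ^ s) i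
    rw [div_add' _ _ _ hW.ne']
    refine div_le_div_of_nonneg_right ?_ hW.le
    have h1 := Z.le_W s (a * 2 ^ s) i b hs hj hi
    linarith
  have := Z.eps_nonneg
  linarith

/-- The value is at most the average excess of the units plus the precision. -/
theorem raw_le_VU (hM : 0 < M) {s a i : ℕ} (hs : s ≤ smax) (hj : a * 2 ^ s + 2 ^ s ≤ n)
    (hi : i < M ^ (n - (a * 2 ^ s + 2 ^ s))) (b : ℤ) :
    raw A WZ s a i b ≤ A.VU (a * 2 ^ s) (2 ^ s) i b + tau s := by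
  unfold raw Along.VU
  have hW := A.W_pos hM (a * 2 ^ s + 2 ^ s) i
  rw [div_add' _ _ _ hW.ne']
  refine div_le_div_of_nonneg_right ?_ hW.le
  have h1 := Z.W_le s (a * 2 ^ s) i b hs hj hi
  have h3 : ∑ u ∈ range (M ^ 2 ^ s), A.C (a * 2 ^ s) (i * M ^ 2 ^ s + u)
        (b - A.US (a * 2 ^ s) (2 ^ s) (i * M ^ 2 ^ s + u)) ≤
      ∑ u ∈ range (M ^ 2 ^ s), (A.DE (a * 2 ^ s) (i * M ^ 2 ^ s + u) +
        A.W (a * 2 ^ s) (i * M ^ 2 ^ s + u) * A.ex (a * 2 ^ s) (i * M ^ 2 ^ s + u)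
        (b - A.US (a * 2 ^ s) (2 ^ s) (i * M ^ 2 ^ s + u))) :=
    sum_le_sum fun m _ => A.C_le_ex hM _ _ _
  rw [sum_add_distrib, ← A.DE_units] at h3
  linarith

section

variable [Nonempty (Fin (M ^ n))] (hM : 0 < M) (lo : ℤ) (NB D0 : ℕ)
    (q : ℕ → ℕ) (hD0 : 0 < D0) (hn : 2 ^ smax ∣ n)
    (hq : ∀ j i, j < n → i < M ^ (n - j) → A.sft j i ≤ q j)
    (hfin : (∑ l ∈ range n, (q l : ℤ)) ≤ lo + (NB * (16 ^ smax * D0) : ℕ))

/-- **The machine values of the accounting theorem.** -/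
noncomputable def mach : Acc.Mach (A.cut hM lo smax NB D0 q hD0 hn hq hfin) where
  om := fun s a x b => om A smax WZ lo s a x b
  tau := fun s => tau s + eps
  omMeas := fun s a x y h => by
    have h' : (x : ℕ) / M ^ ((a + 1) * 2 ^ s) = (y : ℕ) / M ^ ((a + 1) * 2 ^ s) := h
    rw [lev_eq] at h'
    exact om_meas lo s a h'
  omAnti := fun s a x => Z.om_anti hM lo s a x
  tau_nonneg := fun s => add_nonneg (Z.tau_nonneg s) Z.eps_nonneg
  le_om := fun s a x b hs ha => by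
    have hs' : s ≤ smax := hs
    have ha' : a < n / 2 ^ s := ha
    have hj := Along.top_le ha'
    rw [A.cut_e_top ha' x b]
    unfold om
    rw [if_pos ⟨hs', hj⟩]
    exact Z.ex_le_raw hM hs' hj (Along.quot_lt hM hj x) _
  om_le := fun s a x b hs ha => by
    have hs' : s ≤ smax := hs
    have ha' : a < n / 2 ^ s := ha
    have hj := Along.top_le ha'
    rw [A.cut_V ha' x b, ← A.VU_eq]
    unfold om
    rw [if_pos ⟨hs', hj⟩]
    have h1 := Z.raw_le_VU hM hs' hj (Along.quot_lt hM hj x) (A.own lo s a x b)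
    have := Z.eps_nonneg
    linarith

theorem mach_om {s a : ℕ} (hs : s ≤ smax) (hj : a * 2 ^ s + 2 ^ s ≤ n) (x : Fin (M ^ n)) (b : ℕ) :
    (Z.mach hM lo NB D0 q hD0 hn hq hfin).om s a x b =
      (WZ s (a * 2 ^ s + 2 ^ s) ((x : ℕ) / M ^ (a * 2 ^ s + 2 ^ s)) (A.own lo s a x b) -
        A.DE (a * 2 ^ s + 2 ^ s) ((x : ℕ) / M ^ (a * 2 ^ s + 2 ^ s))) /
        A.W (a * 2 ^ s + 2 ^ s) ((x : ℕ) / M ^ (a * 2 ^ s + 2 ^ s)) := by
  show om A smax WZ lo s a x b = _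
  unfold om raw
  rw [if_pos ⟨hs, hj⟩]

/-- The decrease of the value in a block is the decrease of `WZ`, normalised. -/
theorem mach_m {s a : ℕ} (hs : s ≤ smax) (hj : a * 2 ^ s + 2 ^ s ≤ n) (o : ℕ) (x : Fin (M ^ n)) (k : ℕ) :
    (Z.mach hM lo NB D0 q hD0 hn hq hfin).m o s a x k =
      (WZ s (a * 2 ^ s + 2 ^ s) ((x : ℕ) / M ^ (a * 2 ^ s + 2 ^ s))
          (A.own lo s a x ((A.cut hM lo smax NB D0 q hD0 hn hq hfin).b0 o s k)) -
        WZ s (a * 2 ^ s + 2 ^ s) ((x : ℕ) / M ^ (a * 2 ^ s + 2 ^ s))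
          (A.own lo s a x ((A.cut hM lo smax NB D0 q hD0 hn hq hfin).b1 o s k))) /
        A.W (a * 2 ^ s + 2 ^ s) ((x : ℕ) / M ^ (a * 2 ^ s + 2 ^ s)) := by
  unfold Acc.Mach.m
  rw [Z.mach_om hM lo NB D0 q hD0 hn hq hfin hs hj, Z.mach_om hM lo NB D0 q hD0 hn hq hfin hs hj,
    ← sub_div]
  congr 1
  ring

theorem mach_tau (s : ℕ) :
    (Z.mach hM lo NB D0 q hD0 hn hq hfin).tau s = tau s + eps := rfl

end

end ZFam

end Vale.Agent.P315.H381
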