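import Vale.Agent.P315.H381.ZBox
import Vale.Agent.P315.H132.Plug
import Vale.Agent.P315.H855.Transfer

/-!
P315, row C-H3: the curves of `H855/Transfer.lean` in the own rounds of a region are the certified
costs of the units and of the region at the mesh positions of the comparison path, for the
additive geometry.
-/

set_option autoImplicit false

open Finset

namespace Vale.Agent.P315.H381

open C H808
open H801 (nodeD posN labN)
open H132 (cn nd)

theorem shU_eq_US {M n : ℕ} (A : Along M n) (j e i m : ℕ) :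
    H855.shU A j (j + e) i m = A.US j e (i * M ^ e + m) := by
  unfold H855.shU Along.US
  rw [Finset.sum_Ico_eq_sum_range, Nat.add_sub_cancel_left]
  refine sum_congr rfl fun l _ => ?_
  rw [Nat.add_sub_cancel_left]

section

variable {M ℓ μ B J S H n : ℕ} {vis hid : Leaf} {C : Chain (boxPar M ℓ μ B J S H) vis hid n}

variable (C) in
/-- Positions of the ends of the units of the top `(j + 2 ^ s, i)`. -/
def zB (s j i : ℕ) (u : ℕ) : ℕ := C.pos ((i * M ^ 2 ^ s + u) * M ^ j)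

theorem zB_zero (s j i : ℕ) : zB C s j i 0 = C.pos (i * M ^ (j + 2 ^ s)) := by
  unfold zB
  congr 1
  rw [pow_add]; ring

theorem zB_last (s j i : ℕ) : zB C s j i (M ^ 2 ^ s) = C.pos ((i + 1) * M ^ (j + 2 ^ s)) := by
  unfold zB
  congr 1
  rw [pow_add]; ring

/-- The region in its own rounds. -/
theorem ownR_cR (mc : Mach) (ω : Rnd) {η : ℝ}
    (hI : Inst (boxPar M ℓ μ B J S H) vis hid n η C) (s j i t : ℕ) :
    H855.ownR (alongB C mc ω hI) H (j + 2 ^ s) i t =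
      (cR (boxPar M ℓ μ B J S H) mc ω vis hid (j + 2 ^ s) i (C.lab (j + 2 ^ s) i)
        ((t : ℤ) - H) (zB C s j i 0) (zB C s j i (M ^ 2 ^ s)) : ℝ) := by
  rw [zB_zero, zB_last]
  rfl

/-- The units of the region in the own rounds of the region. -/
theorem ownU_hist (mc : Mach) (ω : Rnd) {η : ℝ}
    (hI : Inst (boxPar M ℓ μ B J S H) vis hid n η C) (hM : 0 < M) {s j i : ℕ}
    (hj : j + 2 ^ s ≤ n) (hi : i < M ^ (n - (j + 2 ^ s))) (t : ℕ) {u : ℕ} (hu : u < M ^ 2 ^ s) :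
    H855.ownU (alongB C mc ω hI) H j (j + 2 ^ s) i t u =
      (hist (boxPar M ℓ μ B J S H) ω vis hid (rd (boxPar M ℓ μ B J S H) mc ω vis hid)
        (j + 2 ^ s) i (C.lab (j + 2 ^ s) i) s t u (zB C s j i u / (ℓ * M ^ j)) (zB C s j i u)
        (zB C s j i (u + 1)) : ℝ) := by
  have hpA : C.PenAdd := fun _ _ _ _ _ => rfl
  have h9 := C.US_eq mc ω hI.pt hI.hid_le (fun _ _ => rfl) hpA (2 ^ s) j (i * M ^ 2 ^ s + u) hj
    (desc_lt hj hi hu)
  have h10 : Xi (boxPar M ℓ μ B J S H) ω (j + 2 ^ s) (2 ^ s) (i * M ^ 2 ^ s + u) =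
      Xi (boxPar M ℓ μ B J S H) ω (j + 2 ^ s) (2 ^ s) u :=
    Xi_mul_add (P := boxPar M ℓ μ B J S H) hM ω (j + 2 ^ s) (2 ^ s) i u
  have h11 : H855.shU (alongB C mc ω hI) j (j + 2 ^ s) i u =
      Xi (boxPar M ℓ μ B J S H) ω (j + 2 ^ s) (2 ^ s) u := by
    rw [shU_eq_US, ← h10]
    exact h9
  have hlab : C.lab j (i * M ^ 2 ^ s + u) = zB C s j i u / (ℓ * M ^ j) :=
    (BoxGeo.of_inst hI).lab_eq j (i * M ^ 2 ^ s + u) (le_trans (Nat.le_add_right _ _) hj)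
      (desc_lt hj hi hu)
  unfold H855.ownU
  rw [h11, Nat.add_sub_cancel_left, ← hlab]
  show ((cR (boxPar M ℓ μ B J S H) mc ω vis hid j (i * M ^ 2 ^ s + u)
      (C.lab j (i * M ^ 2 ^ s + u)) ((t : ℤ) - H - Xi (boxPar M ℓ μ B J S H) ω (j + 2 ^ s) (2 ^ s) u)
      (C.pos ((i * M ^ 2 ^ s + u) * M ^ j)) (C.pos ((i * M ^ 2 ^ s + u + 1) * M ^ j)) : ℕ) : ℝ) =
    ((cR (boxPar M ℓ μ B J S H) mc ω vis hid (j + 2 ^ s - 2 ^ s) (i * M ^ 2 ^ s + u)
      (C.lab j (i * M ^ 2 ^ s + u)) ((t : ℤ) - H -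
        Xi (boxPar M ℓ μ B J S H) ω (j + 2 ^ s) (2 ^ s) u - ((0 : ℕ) : ℤ))
      (C.pos ((i * M ^ 2 ^ s + u) * M ^ j)) (C.pos ((i * M ^ 2 ^ s + (u + 1)) * M ^ j)) : ℕ) : ℝ)
  rw [Nat.add_sub_cancel, Nat.cast_zero, sub_zero]
  rfl

theorem floor_step {x y μ ℓ : ℕ} (hμ : 0 < μ) (h : μ ∣ ℓ) (hy : y ≤ x + ℓ) :
    y / μ * μ ≤ x / μ * μ + ℓ := by
  obtain ⟨c, rfl⟩ := h
  calc y / μ * μ ≤ (x + μ * c) / μ * μ := Nat.mul_le_mul_right _ (Nat.div_le_div_right hy)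
    _ = x / μ * μ + μ * c := by
        rw [Nat.add_mul_div_left _ _ hμ]
        ring

/-- The certified cost along the comparison path is at most the trivial bound. -/
theorem cR_le_box (mc : Mach) (ω : Rnd) {η : ℝ}
    (hI : Inst (boxPar M ℓ μ B J S H) vis hid n η C) (hμ : 0 < μ) (hμℓ : μ ∣ ℓ)
    {j i : ℕ} (hj : j ≤ n) (hi : i < M ^ (n - j)) (a : ℕ) (b : ℤ) :
    cR (boxPar M ℓ μ B J S H) mc ω vis hid j i a b (C.pos (i * M ^ j))
      (C.pos ((i + 1) * M ^ j)) ≤ ℓ * M ^ j + 4 * μ := by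
  have G := BoxGeo.of_inst hI
  have hE : ∃ p q, H140.Ed (boxPar M ℓ μ B J S H) p q := by
    obtain ⟨p, h1, h2, h3⟩ := hI.pt
    exact ⟨p, p, h1, h1, h2, h2, h3⟩
  set fl : ℕ → ℕ := fun p => p / μ * μ with hfl
  have hfd : ∀ p, Nat.dist p (fl p) ≤ μ := by
    intro p
    have h1 := Nat.div_mul_le_self p μ
    have h2 := Nat.lt_div_mul_add (a := p) hμ
    show Nat.dist p (p / μ * μ) ≤ μ
    unfold Nat.dist
    omega
  set f : Leaf := known (boxPar M ℓ μ B J S H) vis hid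
    (rd (boxPar M ℓ μ B J S H) mc ω vis hid j i a b) with hf
  set zz : ℕ → ℕ := fun u => fl (C.pos (i * M ^ j + u)) with hzz
  have hrow : ∀ m < M ^ j, i * M ^ j + m < M ^ n := by
    intro m hm
    calc i * M ^ j + m < i * M ^ j + M ^ j := by omega
      _ = (i + 1) * M ^ j := by ring
      _ ≤ M ^ (n - j) * M ^ j := Nat.mul_le_mul_right _ hi
      _ = M ^ n := by rw [← pow_add, Nat.sub_add_cancel hj]
  have hadm : ∀ m < M ^ j, zz m ≤ zz (m + 1) ∧ zz (m + 1) ≤ zz m + ℓ := by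
    intro m hm
    obtain ⟨h1, h2⟩ := G.adm (i * M ^ j + m) (hrow m hm)
    refine ⟨Nat.mul_le_mul_right _ (Nat.div_le_div_right h1), ?_⟩
    exact floor_step hμ hμℓ h2
  have hleB : ∀ m ≤ M ^ j, zz m ≤ B := by
    intro m hm
    have h1 : C.pos (i * M ^ j + m) ≤ B := G.pos_le _ (by
      calc i * M ^ j + m ≤ i * M ^ j + M ^ j := by omega
        _ = (i + 1) * M ^ j := by ring
        _ ≤ M ^ (n - j) * M ^ j := Nat.mul_le_mul_right _ hi
        _ = M ^ n := by rw [← pow_add, Nat.sub_add_cancel hj])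
    exact (Nat.div_mul_le_self _ _).trans h1
  have hroute : (boxPar M ℓ μ B J S H).RouteOK (M ^ j) (fun m => (zz m, zz (m + 1))) :=
    fun m hm => ⟨Dvd.intro_left _ rfl, Dvd.intro_left _ rfl, hleB m hm.le, hleB (m + 1) hm,
      hadm m hm⟩
  have h1 : cR (boxPar M ℓ μ B J S H) mc ω vis hid j i a b (zz 0) (zz (M ^ j)) ≤
      ∑ m ∈ range (M ^ j), f (i * M ^ j + m) (zz m) (zz (m + 1)) := by
    refine (best_le' (P := boxPar M ℓ μ B J S H) hroute f (i * M ^ j) (zz 0)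
      (zz (M ^ j))).trans (le_of_eq ?_)
    exact rcost_path 2 (M ^ j) (fun m => f (i * M ^ j + m)) zz
  have h2 : ∑ m ∈ range (M ^ j), f (i * M ^ j + m) (zz m) (zz (m + 1)) ≤ M ^ j * ℓ := by
    refine (sum_le_card_nsmul _ _ ℓ fun m hm => ?_).trans (le_of_eq (by
      rw [card_range, smul_eq_mul]))
    have h3 : (boxPar M ℓ μ B J S H).adm (zz m) (zz (m + 1)) := hadm m (mem_range.1 hm)
    rw [hf]
    unfold known
    split_ifs
    · exact (hI.hid_le _ _ _ h3).trans (hI.vis_le _ _ _ h3)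
    · exact hI.vis_le _ _ _ h3
  have h4 := cR_lip (P := boxPar M ℓ μ B J S H) (mc := mc) (ω := ω) (vis := vis) (hid := hid)
    hE j i a b (C.pos (i * M ^ j)) (zz 0) (C.pos ((i + 1) * M ^ j)) (zz (M ^ j))
  have e1 : zz 0 = fl (C.pos (i * M ^ j)) := rfl
  have e2 : zz (M ^ j) = fl (C.pos ((i + 1) * M ^ j)) := by
    show fl _ = fl _
    congr 2
    ring
  have e3 : (boxPar M ℓ μ B J S H).sh = 2 := rfl
  rw [e3] at h4
  have h5 := hfd (C.pos (i * M ^ j))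
  have h6 := hfd (C.pos ((i + 1) * M ^ j))
  rw [← e1] at h5
  rw [← e2, Nat.dist_comm] at h6
  have h7 : M ^ j * ℓ = ℓ * M ^ j := Nat.mul_comm _ _
  omega

end

end Vale.Agent.P315.H381
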