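import Vale.Agent.P315.H381.ZBox
import Vale.Agent.P315.H808.QT2
import Vale.Agent.P315.C.Fam
import Vale.Agent.P315.H784.Budget

/-!
P315: the machine values of the accounting theorem for the concrete family `C.fam` and the system
of curves of the query theorem (`H808.CutPar.sys`).
-/

set_option autoImplicit false

open Finset

namespace Vale.Agent.P315.H381

open C H808 H659

section

variable {M ℓ μ B J S H n : ℕ} {vis hid : Leaf} {C : Chain (boxPar M ℓ μ B J S H) vis hid n}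
  {mc : Mach} {ω : Rnd} {g : ℕ → ℕ}

/-- Below the own index `-j`, `j` = level of the units, the value is constant. -/
theorem WB_neg {s j i : ℕ} {b b' : ℤ} (h : b < -(j : ℤ)) (h' : b' < -(j : ℤ)) :
    WB C mc ω g s (j + 2 ^ s) i b = WB C mc ω g s (j + 2 ^ s) i b' := by
  unfold WB
  rw [nodeB_eq, nodeB_eq]
  exact H220.wd_congr fun m _ x _ y _ =>
    UD_neg (Nat.le_add_left _ _) i _ _ _ (by push_cast; linarith) (by push_cast; linarith) m x y

/-- Every index has its round, also the indices before the first round. -/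
theorem WB_round {s j i : ℕ} (hj : j < H) (b : ℤ) :
    WB C mc ω g s (j + 2 ^ s) i b =
      WB C mc ω g s (j + 2 ^ s) i (((b + H).toNat : ℤ) - H) := by
  rcases le_total (-(H : ℤ)) b with h | h
  · rw [Int.toNat_of_nonneg (by linarith)]
    congr 1
    ring
  · rw [Int.toNat_of_nonpos (by linarith)]
    exact WB_neg (by omega) (by push_cast; omega)

/-- The value at the own index `b` is the value of the machine graph in round `b + H`. -/
theorem WB_hist {s j i : ℕ} (hj : j < H) (b : ℤ) :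
    WB C mc ω g s (j + 2 ^ s) i b =
      H220.WD (M ^ 2 ^ s + 2) (2 * M ^ 2 ^ s * g s + 1)
        (H132.cn (M ^ 2 ^ s) (ℓ * M ^ (j + 2 ^ s - 2 ^ s)) (C.lab (j + 2 ^ s) i)
          (ℓ * M ^ (j + 2 ^ s - 2 ^ s) / g s) (C.pos (i * M ^ (j + 2 ^ s))) * M ^ 2 ^ s)
        (H132.cn (M ^ 2 ^ s) (ℓ * M ^ (j + 2 ^ s - 2 ^ s)) (C.lab (j + 2 ^ s) i)
          (ℓ * M ^ (j + 2 ^ s - 2 ^ s) / g s) (C.pos ((i + 1) * M ^ (j + 2 ^ s))) * M ^ 2 ^ s)
        (H801.nodeD (M ^ 2 ^ s) (ℓ * M ^ (j + 2 ^ s - 2 ^ s)) (g s) μ B (C.lab (j + 2 ^ s) i)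
          (hist (boxPar M ℓ μ B J S H) ω vis hid (rd (boxPar M ℓ μ B J S H) mc ω vis hid)
            (j + 2 ^ s) i (C.lab (j + 2 ^ s) i) s) (b + H).toNat) := by
  rw [WB_round hj]
  rfl

end

/-- The numbers of the family. -/
theorem boxNum_fam {m S ℓ μ : ℕ} (hμ : 0 < μ) (hd : μ ∣ ℓ) (hℓ : 0 < ℓ)
    (h2 : 2 ^ (2 * m * 2 ^ S) ∣ ℓ / μ) : BoxNum (2 ^ (20 * m)) ℓ μ S (famMP m).g where
  hM := by positivity
  hℓ := hℓ
  hμ := hμ
  hg := fun s _ => by
    show 0 < 2 ^ (2 * m * 2 ^ s)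
    positivity
  hd := fun s hs => by
    have h3 : (famMP m).g s ∣ 2 ^ (2 * m * 2 ^ S) := by
      show 2 ^ (2 * m * 2 ^ s) ∣ _
      exact pow_dvd_pow 2 (Nat.mul_le_mul_left _ (Nat.pow_le_pow_right (by norm_num) hs))
    obtain ⟨c, hc⟩ := h3.trans h2
    obtain ⟨d, rfl⟩ := hd
    rw [Nat.mul_div_cancel_left _ hμ] at hc
    rw [hc, ← mul_assoc]
    exact Dvd.intro _ rfl

section

variable {m k cd n S ℓ μ B : ℕ} {vis hid : Leaf}
  {C : Chain (fam m k cd n S ℓ μ B).P vis hid (fam m k cd n S ℓ μ B).n} {η : ℝ}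

/-- The family of the values of the machines. -/
theorem zfamFam (hI : Inst (fam m k cd n S ℓ μ B).P vis hid (fam m k cd n S ℓ μ B).n η C)
    {smax : ℕ} (N : BoxNum (2 ^ (20 * m)) ℓ μ smax (famMP m).g) (hη : 0 ≤ η)
    (hw : ∀ i, C.w i = ℓ) (w : (fam m k cd n S ℓ μ B).Seed) :
    ZFam (QAlong (fam m k cd n S ℓ μ B) hI w) smax
      (fun s Jv i b => (WB (S := S + 1) (H := famH m n S) (J := 2 ^ k - 1) C
        (fam m k cd n S ℓ μ B).mc (toRnd (fam m k cd n S ℓ μ B).P.J w) (famMP m).g s Jv i b : ℝ))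
      (fun s => 12 / (famMP m).g s) η :=
  zfamB (S := S + 1) (H := famH m n S) (J := 2 ^ k - 1) (C := C) (fam m k cd n S ℓ μ B).mc
    (toRnd (fam m k cd n S ℓ μ B).P.J w) hI N hη hw

variable [Nonempty (Fin ((fam m k cd n S ℓ μ B).P.M ^ (fam m k cd n S ℓ μ B).n))]

/-- **The machine values** of the accounting theorem, for the family. -/
noncomputable def famR (K : CutPar (fam m k cd n S ℓ μ B) C)
    (hI : Inst (fam m k cd n S ℓ μ B).P vis hid (fam m k cd n S ℓ μ B).n η C)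
    (N : BoxNum (2 ^ (20 * m)) ℓ μ K.smax (famMP m).g) (hη : 0 ≤ η)
    (hw : ∀ i, C.w i = ℓ) (w : (fam m k cd n S ℓ μ B).Seed) : Acc.Mach (K.sys hI w) :=
  (zfamFam hI N hη hw w).mach K.hM K.lo K.NB K.D0 (fun _ => (fam m k cd n S ℓ μ B).P.J + K.pb)
    K.hD0 K.hn (K.sft_le hI w) K.hfin'

variable {K : CutPar (fam m k cd n S ℓ μ B) C}
  {hI : Inst (fam m k cd n S ℓ μ B).P vis hid (fam m k cd n S ℓ μ B).n η C}
  {N : BoxNum (2 ^ (20 * m)) ℓ μ K.smax (famMP m).g} {hη : 0 ≤ η}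
  {hw : ∀ i, C.w i = ℓ} {w : (fam m k cd n S ℓ μ B).Seed}

theorem famR_tau (s : ℕ) : (famR K hI N hη hw w).tau s = 12 * Par.dlm m s + η := by
  show 12 / (((famMP m).g s : ℕ) : ℝ) + η = _
  congr 1
  show 12 / (((2 ^ (2 * m * 2 ^ s) : ℕ)) : ℝ) = 12 * Par.dlm m s
  unfold Par.dlm
  push_cast
  rw [one_div, inv_pow]
  rfl

/-- The decrease of the value in a block is the decrease of the natural number `WB` of the class
test, divided by the length of the top. -/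
theorem famR_m {s a : ℕ} (hs : s ≤ K.smax) (hj : a * 2 ^ s + 2 ^ s ≤ n) (o : ℕ)
    (x : Fin ((fam m k cd n S ℓ μ B).P.M ^ (fam m k cd n S ℓ μ B).n)) (kb : ℕ) :
    (famR K hI N hη hw w).m o s a x kb =
      ((WB (S := S + 1) (H := famH m n S) (J := 2 ^ k - 1) C (fam m k cd n S ℓ μ B).mc
          (toRnd (fam m k cd n S ℓ μ B).P.J w) (famMP m).g s (a * 2 ^ s + 2 ^ s)
          ((x : ℕ) / (2 ^ (20 * m)) ^ (a * 2 ^ s + 2 ^ s))
          ((QAlong (fam m k cd n S ℓ μ B) hI w).own K.lo s a x ((K.sys hI w).b0 o s kb)) : ℝ) -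
        WB (S := S + 1) (H := famH m n S) (J := 2 ^ k - 1) C (fam m k cd n S ℓ μ B).mc
          (toRnd (fam m k cd n S ℓ μ B).P.J w) (famMP m).g s (a * 2 ^ s + 2 ^ s)
          ((x : ℕ) / (2 ^ (20 * m)) ^ (a * 2 ^ s + 2 ^ s))
          ((QAlong (fam m k cd n S ℓ μ B) hI w).own K.lo s a x ((K.sys hI w).b1 o s kb))) /
        (((2 ^ (20 * m)) ^ 2 ^ s * (ℓ * (2 ^ (20 * m)) ^ (a * 2 ^ s)) : ℕ) : ℝ) := by
  have h1 := (zfamFam hI N hη hw w).mach_m K.hM K.lo K.NB K.D0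
    (fun _ => (fam m k cd n S ℓ μ B).P.J + K.pb)
    K.hD0 K.hn (K.sft_le hI w) K.hfin' hs hj o x kb
  refine h1.trans ?_
  congr 1
  have h2 := W_const (M := (fam m k cd n S ℓ μ B).P.M) (n := (fam m k cd n S ℓ μ B).n)
    (A := QAlong (fam m k cd n S ℓ μ B) hI w) (c := (ℓ : ℝ)) hw (a * 2 ^ s + 2 ^ s)
    ((x : ℕ) / (fam m k cd n S ℓ μ B).P.M ^ (a * 2 ^ s + 2 ^ s))
  rw [h2]
  have e1 : (((fam m k cd n S ℓ μ B).P.M : ℕ) : ℝ) = 2 ^ (20 * m) := by
    show (((2 ^ (20 * m) : ℕ)) : ℝ) = _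
    push_cast
    ring
  rw [e1]
  push_cast
  rw [pow_add]
  ring

end

end Vale.Agent.P315.H381
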